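import Vale.Agent.Lib.P037.Gen2

/-! # P037: the constant pattern [[1,1],[1,1]] (blueprint2, part A). -/

namespace Vale.Agent.Lib.P037

open Finset

theorem free2_zero (n : ℕ) : free2 n true true true true (fun _ _ => false) := by
  intro r1 r2 c1 c2 _ _ _ _ h
  exact Bool.false_ne_true h.1

/-- a set of size `d` has at least `d (d - 1) / 2` increasing pairs. -/
theorem paJ_sq_le (S : Finset ℕ) :
    S.card * S.card ≤ S.card + 2 * ((S ×ˢ S).filter fun p => p.1 < p.2).card := by
  classical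
  have hsplit : S ×ˢ S ⊆ ((S ×ˢ S).filter fun p => p.1 = p.2) ∪
      (((S ×ˢ S).filter fun p => p.1 < p.2) ∪ ((S ×ˢ S).filter fun p => p.2 < p.1)) := by
    intro p h
    simp only [mem_union, mem_filter]
    rcases lt_trichotomy p.1 p.2 with h1 | h1 | h1
    · exact Or.inr (Or.inl ⟨h, h1⟩)
    · exact Or.inl ⟨h, h1⟩
    · exact Or.inr (Or.inr ⟨h, h1⟩)
  have hdiag : ((S ×ˢ S).filter fun p => p.1 = p.2).card ≤ S.card := by
    apply Finset.card_le_card_of_injOn (fun p => p.1)
    · intro p hp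
      simp only [coe_filter, mem_product, Set.mem_ofPred_eq] at hp
      exact hp.1.1
    · intro p hp q hq hpq
      simp only [coe_filter, mem_product, Set.mem_ofPred_eq] at hp hq
      have h1 : p.1 = q.1 := hpq
      have h2 : p.2 = q.2 := by rw [← hp.2, ← hq.2]; exact h1
      exact Prod.ext h1 h2
  have hswap : ((S ×ˢ S).filter fun p => p.2 < p.1).card ≤
      ((S ×ˢ S).filter fun p => p.1 < p.2).card := by
    apply Finset.card_le_card_of_injOn Prod.swap
    · intro p hp
      simp only [coe_filter, mem_product, Set.mem_ofPred_eq] at hp ⊢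
      exact ⟨⟨hp.1.2, hp.1.1⟩, hp.2⟩
    · exact Prod.swap_injective.injOn
  have hcard : (S ×ˢ S).card = S.card * S.card := Finset.card_product S S
  have h1 := Finset.card_le_card hsplit
  have h2 := Finset.card_union_le ((S ×ˢ S).filter fun p => p.1 = p.2)
      (((S ×ˢ S).filter fun p => p.1 < p.2) ∪ ((S ×ˢ S).filter fun p => p.2 < p.1))
  have h3 := Finset.card_union_le ((S ×ˢ S).filter fun p => p.1 < p.2)
      ((S ×ˢ S).filter fun p => p.2 < p.1)
  omega

theorem paJ_arith (θ d : ℕ) : θ * d + d ≤ θ ^ 2 + d * d := by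
  rcases le_or_gt d θ with h | h
  · have h1 : θ * d ≤ θ * θ := Nat.mul_le_mul_left θ h
    have h2 : d ≤ d * d := Nat.le_mul_self d
    nlinarith
  · have h1 : (θ + 1) * d ≤ d * d := Nat.mul_le_mul_right d h
    nlinarith

/-- the linearised convexity step. -/
theorem paJ_key (n θ : ℕ) (f : ℕ → Bool) :
    θ * ((range n).filter fun c => f c = true).card ≤
      θ ^ 2 + 2 * ((range n ×ˢ range n).filter
        fun p => p.1 < p.2 ∧ f p.1 = true ∧ f p.2 = true).card := by
  have h1 := paJ_sq_le ((range n).filter fun c => f c = true)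
  have h2 := paJ_arith θ ((range n).filter fun c => f c = true).card
  have h3 : ((((range n).filter fun c => f c = true) ×ˢ
      ((range n).filter fun c => f c = true)).filter fun p => p.1 < p.2) =
      (range n ×ˢ range n).filter fun p => p.1 < p.2 ∧ f p.1 = true ∧ f p.2 = true := by
    ext p
    simp only [mem_filter, mem_product]
    tauto
  rw [h3] at h1
  omega

theorem paJ_card_prod {α β : Type*} (s : Finset α) (t : Finset β) (p : α × β → Prop)
    [DecidablePred p] :
    ((s ×ˢ t).filter p).card = ∑ a ∈ s, (t.filter fun b => p (a, b)).card := by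
  simp only [Finset.card_filter, Finset.sum_product]

/-- double counting (Kővári–Sós–Turán type), linearised with free parameters. -/
theorem boundJ (n θ θ' : ℕ) (A : ℕ → ℕ → Bool) :
    θ * θ' * hamN n A (fun _ _ => false) ≤
      n * θ ^ 2 * θ' + 2 * n ^ 2 * θ' ^ 2 + 4 * (copies2 n true true true true A).card := by
  classical
  -- number of cherries
  set Pn : ℕ := ∑ r ∈ range n, ((range n ×ˢ range n).filter
        fun p => p.1 < p.2 ∧ A r p.1 = true ∧ A r p.2 = true).card with hPn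
  have he : hamN n A (fun _ _ => false) =
      ∑ r ∈ range n, ((range n).filter fun c => A r c = true).card := by
    unfold hamN
    rw [paJ_card_prod]
    apply Finset.sum_congr rfl
    intro r _
    congr 1
    ext c
    simp
  have hstep1 : θ * hamN n A (fun _ _ => false) ≤ n * θ ^ 2 + 2 * Pn := by
    rw [he, Finset.mul_sum]
    calc ∑ r ∈ range n, θ * ((range n).filter fun c => A r c = true).card
        ≤ ∑ r ∈ range n, (θ ^ 2 + 2 * ((range n ×ˢ range n).filter
          fun p => p.1 < p.2 ∧ A r p.1 = true ∧ A r p.2 = true).card) :=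
          Finset.sum_le_sum (fun r _ => paJ_key n θ (A r))
      _ = n * θ ^ 2 + 2 * Pn := by
          rw [Finset.sum_add_distrib, ← Finset.mul_sum, Finset.sum_const, card_range,
            smul_eq_mul]
  -- swap
  have hPn2 : Pn = ∑ p ∈ range n ×ˢ range n, ((range n).filter
      fun r => (decide (p.1 < p.2) && A r p.1 && A r p.2) = true).card := by
    rw [hPn]
    simp only [Finset.card_filter]
    rw [Finset.sum_comm]
    apply Finset.sum_congr rfl
    intro p _
    apply Finset.sum_congr rfl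
    intro r _
    simp only [Bool.and_eq_true, decide_eq_true_eq, and_assoc]
  have hN : ∑ p ∈ range n ×ˢ range n, ((range n ×ˢ range n).filter
      fun q => q.1 < q.2 ∧ (decide (p.1 < p.2) && A q.1 p.1 && A q.1 p.2) = true ∧
        (decide (p.1 < p.2) && A q.2 p.1 && A q.2 p.2) = true).card ≤
      (copies2 n true true true true A).card := by
    rw [← paJ_card_prod (range n ×ˢ range n) (range n ×ˢ range n)
      (fun z => z.2.1 < z.2.2 ∧ (decide (z.1.1 < z.1.2) && A z.2.1 z.1.1 && A z.2.1 z.1.2) = true ∧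
        (decide (z.1.1 < z.1.2) && A z.2.2 z.1.1 && A z.2.2 z.1.2) = true)]
    apply Finset.card_le_card_of_injOn (fun z => (z.2.1, z.2.2, z.1.1, z.1.2))
    · intro z hz
      simp only [coe_filter, mem_product, Set.mem_ofPred_eq, Bool.and_eq_true,
        decide_eq_true_eq] at hz
      simp only [copies2, coe_filter, mem_product, Set.mem_ofPred_eq]
      tauto
    · intro z _ w _ hzw
      simp only [Prod.mk.injEq] at hzw
      exact Prod.ext (Prod.ext hzw.2.2.1 hzw.2.2.2) (Prod.ext hzw.1 hzw.2.1)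
  have hstep2 : θ' * Pn ≤ n ^ 2 * θ' ^ 2 + 2 * (copies2 n true true true true A).card := by
    rw [hPn2, Finset.mul_sum]
    calc ∑ p ∈ range n ×ˢ range n, θ' * ((range n).filter
          fun r => (decide (p.1 < p.2) && A r p.1 && A r p.2) = true).card
        ≤ ∑ p ∈ range n ×ˢ range n, (θ' ^ 2 + 2 * ((range n ×ˢ range n).filter
          fun q => q.1 < q.2 ∧ (decide (p.1 < p.2) && A q.1 p.1 && A q.1 p.2) = true ∧
            (decide (p.1 < p.2) && A q.2 p.1 && A q.2 p.2) = true).card) :=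
          Finset.sum_le_sum (fun p _ => paJ_key n θ'
            (fun r => decide (p.1 < p.2) && A r p.1 && A r p.2))
      _ = n ^ 2 * θ' ^ 2 + 2 * ∑ p ∈ range n ×ˢ range n, ((range n ×ˢ range n).filter
          fun q => q.1 < q.2 ∧ (decide (p.1 < p.2) && A q.1 p.1 && A q.1 p.2) = true ∧
            (decide (p.1 < p.2) && A q.2 p.1 && A q.2 p.2) = true).card := by
          rw [Finset.sum_add_distrib, ← Finset.mul_sum, Finset.sum_const, card_product,
            card_range, smul_eq_mul, sq n]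
      _ ≤ _ := by omega
  calc θ * θ' * hamN n A (fun _ _ => false)
      = θ' * (θ * hamN n A (fun _ _ => false)) := by ring
    _ ≤ θ' * (n * θ ^ 2 + 2 * Pn) := Nat.mul_le_mul_left θ' hstep1
    _ = n * θ ^ 2 * θ' + 2 * (θ' * Pn) := by ring
    _ ≤ n * θ ^ 2 * θ' + 2 * (n ^ 2 * θ' ^ 2 + 2 * (copies2 n true true true true A).card) := by
        omega
    _ = _ := by ring

/-- `boundJ` with `θ = M^2 u`, `θ' = u`. -/
theorem main_boundJ (M u n : ℕ) (hM : 1 ≤ M) (hu : 1 ≤ u) (h1 : M ^ 3 * u ≤ n)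
    (h2 : n < 2 * (M ^ 3 * u)) (A : ℕ → ℕ → Bool) :
    ∃ B : ℕ → ℕ → Bool, free2 n true true true true B ∧
      (hamN n A B : ℝ) ≤ 4 * (n : ℝ) ^ 2 / M
        + 16 * (M : ℝ) ^ 4 * ((copies2 n true true true true A).card : ℝ) / (n : ℝ) ^ 2 := by
  refine ⟨fun _ _ => false, free2_zero n, ?_⟩
  have hb := boundJ n (M ^ 2 * u) u A
  have hbR : ((M : ℝ) ^ 2 * u) * u * (hamN n A (fun _ _ => false) : ℝ) ≤
      (n : ℝ) * ((M : ℝ) ^ 2 * u) ^ 2 * u + 2 * (n : ℝ) ^ 2 * (u : ℝ) ^ 2
        + 4 * ((copies2 n true true true true A).card : ℝ) := by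
    exact_mod_cast hb
  generalize (hamN n A (fun _ _ => false) : ℝ) = e at hbR ⊢
  have hN0 : (0 : ℝ) ≤ ((copies2 n true true true true A).card : ℝ) := Nat.cast_nonneg _
  generalize ((copies2 n true true true true A).card : ℝ) = N at hbR hN0 ⊢
  have hMR : (1 : ℝ) ≤ (M : ℝ) := by exact_mod_cast hM
  have huR : (1 : ℝ) ≤ (u : ℝ) := by exact_mod_cast hu
  have h1R : (M : ℝ) ^ 3 * u ≤ (n : ℝ) := by exact_mod_cast h1
  have h2R : (n : ℝ) < 2 * ((M : ℝ) ^ 3 * u) := by exact_mod_cast h2
  generalize (M : ℝ) = m at hbR hMR h1R h2R ⊢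
  generalize (u : ℝ) = v at hbR huR h1R h2R ⊢
  generalize (n : ℝ) = x at hbR h1R h2R ⊢
  have hm0 : 0 < m := by linarith
  have hv0 : 0 < v := by linarith
  have hx0 : 0 < x := lt_of_lt_of_le (by positivity) h1R
  have hD : 0 < m ^ 2 * v ^ 2 := by positivity
  have hkey : e ≤ x * m ^ 2 * v + 2 * x ^ 2 / m ^ 2 + 4 * N / (m ^ 2 * v ^ 2) := by
    have h3 : x * m ^ 2 * v + 2 * x ^ 2 / m ^ 2 + 4 * N / (m ^ 2 * v ^ 2) =
        (x * (m ^ 2 * v) ^ 2 * v + 2 * x ^ 2 * v ^ 2 + 4 * N) / (m ^ 2 * v ^ 2) := by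
      field_simp
    rw [h3, le_div_iff₀ hD]
    calc e * (m ^ 2 * v ^ 2) = m ^ 2 * v * v * e := by ring
      _ ≤ _ := hbR
  have t1 : x * m ^ 2 * v ≤ x ^ 2 / m := by
    rw [le_div_iff₀ hm0]
    calc x * m ^ 2 * v * m = x * (m ^ 3 * v) := by ring
      _ ≤ x * x := mul_le_mul_of_nonneg_left h1R hx0.le
      _ = x ^ 2 := by ring
  have t2 : 2 * x ^ 2 / m ^ 2 ≤ 2 * x ^ 2 / m := by
    apply div_le_div_of_nonneg_left (by positivity) hm0
    nlinarith
  have t3 : 4 * N / (m ^ 2 * v ^ 2) ≤ 16 * m ^ 4 * N / x ^ 2 := by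
    rw [div_le_div_iff₀ hD (by positivity)]
    have h4 : x ^ 2 ≤ (2 * (m ^ 3 * v)) ^ 2 := pow_le_pow_left₀ hx0.le h2R.le 2
    calc 4 * N * x ^ 2 ≤ 4 * N * (2 * (m ^ 3 * v)) ^ 2 :=
          mul_le_mul_of_nonneg_left h4 (by positivity)
      _ = 16 * m ^ 4 * N * (m ^ 2 * v ^ 2) := by ring
  have t4 : x ^ 2 / m + 2 * x ^ 2 / m ≤ 4 * x ^ 2 / m := by
    rw [← add_div]
    apply div_le_div_of_nonneg_right _ hm0.le
    nlinarith [sq_nonneg x]
  linarith

theorem RP_J : RP !![true, true; true, true] :=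
  RP_of_bound true true true true 3 4 1 4 16 (by norm_num) (by norm_num)
    (fun M u n _ hM hu h1 h2 A => main_boundJ M u n hM hu h1 h2 A)

end Vale.Agent.Lib.P037
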