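import Vale.Agent.Lib.P037.Gen2

/-! # P037: the pattern [[1,1],[0,0]] (blueprint2, part C). -/

namespace Vale.Agent.Lib.P037

open Finset

/-- sort every column: zeros on top, ones below. -/
def sortCol (n : ℕ) (A : ℕ → ℕ → Bool) : ℕ → ℕ → Bool :=
  fun r c => decide (((range n).filter fun x => A x c = false).card ≤ r)

theorem free2_sortCol (n : ℕ) (A : ℕ → ℕ → Bool) :
    free2 n true true false false (sortCol n A) := by
  intro r1 r2 c1 c2 hr _ _ _ h
  obtain ⟨h1, -, h3, -⟩ := h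
  simp only [sortCol, decide_eq_true_eq, decide_eq_false_iff_not, not_le] at h1 h3
  omega

/-- number of increasing pairs inside a finite set of naturals -/
lemma pcC_card_sq (S : Finset ℕ) :
    S.card * S.card = S.card + 2 * ((S ×ˢ S).filter fun p => p.1 < p.2).card := by
  have h1 : (S ×ˢ S).card = ((S ×ˢ S).filter fun p => p.1 < p.2).card
      + ((S ×ˢ S).filter fun p => p.2 < p.1).card + ((S ×ˢ S).filter fun p => p.1 = p.2).card := by
    simp only [card_filter, ← sum_add_distrib]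
    rw [card_eq_sum_ones]
    refine sum_congr rfl fun p _ => ?_
    rcases lt_trichotomy p.1 p.2 with h | h | h
    · simp [h, h.le.not_gt, h.ne]
    · simp [h]
    · simp [h, h.le.not_gt, h.ne']
  have h2 : ((S ×ˢ S).filter fun p => p.2 < p.1).card = ((S ×ˢ S).filter fun p => p.1 < p.2).card := by
    refine card_bij (fun p _ => (p.2, p.1)) ?_ ?_ ?_
    · intro p hp
      rw [mem_filter, mem_product] at hp ⊢
      exact ⟨⟨hp.1.2, hp.1.1⟩, hp.2⟩
    · intro p _ q _ h
      simp only [Prod.mk.injEq] at h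
      exact Prod.ext h.2 h.1
    · intro p hp
      rw [mem_filter, mem_product] at hp
      exact ⟨(p.2, p.1), by rw [mem_filter, mem_product]; exact ⟨⟨hp.1.2, hp.1.1⟩, hp.2⟩, rfl⟩
  have h3 : ((S ×ˢ S).filter fun p => p.1 = p.2).card = S.card := by
    refine card_bij (fun p _ => p.1) ?_ ?_ ?_
    · intro p hp
      rw [mem_filter, mem_product] at hp
      exact hp.1.1
    · intro p hp q hq h
      rw [mem_filter] at hp hq
      exact Prod.ext h (by rw [← hp.2, ← hq.2]; exact h)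
    · intro x hx
      exact ⟨(x, x), by rw [mem_filter, mem_product]; exact ⟨⟨hx, hx⟩, rfl⟩, rfl⟩
  rw [card_product] at h1
  omega

lemma pcC_theta (S : Finset ℕ) (θ : ℕ) :
    θ * S.card ≤ θ ^ 2 + 2 * ((S ×ˢ S).filter fun p => p.1 < p.2).card := by
  have h := pcC_card_sq S
  rcases le_or_gt S.card θ with h1 | h1
  · nlinarith
  · nlinarith

/-- zeros of the column -/
def pcZ (n : ℕ) (A : ℕ → ℕ → Bool) (c : ℕ) : ℕ := ((range n).filter fun x => A x c = false).card

/-- misplaced ones -/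
def pcUp (n : ℕ) (A : ℕ → ℕ → Bool) (c : ℕ) : Finset ℕ :=
  (range n).filter fun r => r < pcZ n A c ∧ A r c = true

/-- misplaced zeros -/
def pcDn (n : ℕ) (A : ℕ → ℕ → Bool) (c : ℕ) : Finset ℕ :=
  (range n).filter fun r => pcZ n A c ≤ r ∧ A r c = false

lemma pcZ_le (n : ℕ) (A : ℕ → ℕ → Bool) (c : ℕ) : pcZ n A c ≤ n := by
  unfold pcZ
  exact (card_filter_le _ _).trans (by simp)

lemma pcUp_card_eq (n : ℕ) (A : ℕ → ℕ → Bool) (c : ℕ) : (pcUp n A c).card = (pcDn n A c).card := by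
  have hz := pcZ_le n A c
  set z := pcZ n A c with hzdef
  -- split range z
  have h1 : z = ((range z).filter fun r => A r c = true).card
      + ((range z).filter fun r => ¬ A r c = true).card := by
    rw [card_filter_add_card_filter_not]
    simp
  have h2 : ((range z).filter fun r => A r c = true) = pcUp n A c := by
    ext r
    simp only [pcUp, mem_filter, mem_range, ← hzdef]
    constructor
    · rintro ⟨h, h'⟩
      exact ⟨by omega, h, h'⟩
    · rintro ⟨_, h, h'⟩
      exact ⟨h, h'⟩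
  have h3 : z = (((range n).filter fun x => A x c = false).filter fun r => r < z).card
      + (((range n).filter fun x => A x c = false).filter fun r => ¬ r < z).card := by
    rw [card_filter_add_card_filter_not]
    rfl
  have h4 : (((range n).filter fun x => A x c = false).filter fun r => r < z)
      = ((range z).filter fun r => ¬ A r c = true) := by
    ext r
    simp only [mem_filter, mem_range, Bool.not_eq_true]
    constructor
    · rintro ⟨⟨_, h⟩, h'⟩
      exact ⟨h', h⟩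
    · rintro ⟨h, h'⟩
      exact ⟨⟨by omega, h'⟩, h⟩
  have h5 : (((range n).filter fun x => A x c = false).filter fun r => ¬ r < z) = pcDn n A c := by
    ext r
    simp only [pcDn, mem_filter, mem_range, ← hzdef, not_lt]
    constructor
    · rintro ⟨⟨h0, h⟩, h'⟩
      exact ⟨h0, h', h⟩
    · rintro ⟨h0, h, h'⟩
      exact ⟨⟨h0, h'⟩, h⟩
  rw [h2] at h1
  rw [h4, h5] at h3
  omega

lemma pcC_card_filter_prod_right (X Y : Finset ℕ) (p : ℕ × ℕ → Prop) [DecidablePred p] :
    ((X ×ˢ Y).filter p).card = ∑ y ∈ Y, (X.filter fun x => p (x, y)).card := by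
  simp only [Finset.card_filter]
  rw [Finset.sum_product_right]

lemma pcC_ham (n : ℕ) (A : ℕ → ℕ → Bool) :
    hamN n A (sortCol n A) = ∑ c ∈ range n, 2 * (pcUp n A c).card := by
  unfold hamN
  rw [pcC_card_filter_prod_right]
  refine sum_congr rfl fun c _ => ?_
  have hd : Disjoint (pcUp n A c) (pcDn n A c) := by
    rw [disjoint_left]
    intro r h1 h2
    simp only [pcUp, pcDn, mem_filter] at h1 h2
    omega
  have hU : ((range n).filter fun r => A r c ≠ sortCol n A r c) = pcUp n A c ∪ pcDn n A c := by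
    ext r
    unfold pcUp pcDn
    rw [mem_union, mem_filter, mem_filter, mem_filter]
    have hs : sortCol n A r c = decide (pcZ n A c ≤ r) := rfl
    rw [hs]
    by_cases hz : pcZ n A c ≤ r
    · have hz' : ¬ r < pcZ n A c := by omega
      simp only [hz, hz', decide_true, false_and, and_false, true_and, false_or, ne_eq,
        Bool.not_eq_true]
    · have hz' : r < pcZ n A c := by omega
      simp only [hz, hz', decide_false, false_and, and_false, true_and, or_false, ne_eq,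
        Bool.not_eq_false]
  show ((range n).filter fun r => A r c ≠ sortCol n A r c).card = _
  rw [hU, card_union_of_disjoint hd, ← pcUp_card_eq]
  ring

/-- inversions of a column -/
def pcI (n : ℕ) (A : ℕ → ℕ → Bool) (c : ℕ) : ℕ :=
  ((range n ×ˢ range n).filter fun q => q.1 < q.2 ∧ A q.1 c = true ∧ A q.2 c = false).card

lemma pcC_sq_le (n : ℕ) (A : ℕ → ℕ → Bool) (c : ℕ) : (pcUp n A c).card ^ 2 ≤ pcI n A c := by
  have hsub : pcUp n A c ×ˢ pcDn n A c ⊆
      (range n ×ˢ range n).filter fun q => q.1 < q.2 ∧ A q.1 c = true ∧ A q.2 c = false := by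
    intro q hq
    simp only [pcUp, pcDn, mem_product, mem_filter] at hq ⊢
    obtain ⟨⟨h1, h2, h3⟩, h4, h5, h6⟩ := hq
    exact ⟨⟨h1, h4⟩, by omega, h3, h6⟩
  have := card_le_card hsub
  rw [card_product, ← pcUp_card_eq] at this
  unfold pcI
  rw [sq]
  exact this

/-- columns with a one in row `r1` and a zero in row `r2` -/
def pcS (n : ℕ) (A : ℕ → ℕ → Bool) (q : ℕ × ℕ) : Finset ℕ :=
  (range n).filter fun c => A q.1 c = true ∧ A q.2 c = false

lemma pcC_sumI (n : ℕ) (A : ℕ → ℕ → Bool) :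
    ∑ c ∈ range n, pcI n A c
      = ∑ q ∈ (range n ×ˢ range n).filter (fun q => q.1 < q.2), (pcS n A q).card := by
  simp only [pcI, pcS, card_filter]
  rw [sum_comm, sum_filter]
  refine sum_congr rfl fun q _ => ?_
  by_cases hq : q.1 < q.2
  · simp [hq]
  · simp [hq]

lemma pcC_sumP (n : ℕ) (A : ℕ → ℕ → Bool) :
    ∑ q ∈ (range n ×ˢ range n).filter (fun q => q.1 < q.2),
      ((pcS n A q ×ˢ pcS n A q).filter fun p => p.1 < p.2).card
      ≤ (copies2 n true true false false A).card := by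
  rw [← card_sigma]
  refine card_le_card_of_injOn (fun x => (x.1.1, x.1.2, x.2.1, x.2.2)) ?_ ?_
  · intro x hx
    have hx' := mem_sigma.1 (mem_coe.1 hx)
    simp only [pcS, mem_filter, mem_product, mem_range] at hx'
    obtain ⟨⟨⟨h1, h2⟩, h3⟩, ⟨⟨h4, h5, h6⟩, h7, h8, h9⟩, h10⟩ := hx'
    show _ ∈ copies2 n true true false false A
    simp only [copies2, mem_filter, mem_product, mem_range]
    exact ⟨⟨h1, h2, h4, h7⟩, h3, h10, h5, h8, h6, h9⟩
  · intro x _ y _ h
    simp only [Prod.mk.injEq] at h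
    obtain ⟨h1, h2, h3, h4⟩ := h
    obtain ⟨⟨x1, x2⟩, ⟨x3, x4⟩⟩ := x
    obtain ⟨⟨y1, y2⟩, ⟨y3, y4⟩⟩ := y
    simp only at h1 h2 h3 h4
    subst h1 h2 h3 h4
    rfl

theorem boundC (n θ lam : ℕ) (A : ℕ → ℕ → Bool) :
    θ * lam * hamN n A (sortCol n A) ≤
      2 * n ^ 2 * θ ^ 2 + 4 * (copies2 n true true false false A).card + 2 * θ * n * lam ^ 2 := by
  set N := (copies2 n true true false false A).card with hN
  -- step 1
  have h1 : lam * ∑ c ∈ range n, (pcUp n A c).card ≤ ∑ c ∈ range n, pcI n A c + n * lam ^ 2 := by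
    rw [mul_sum]
    calc ∑ c ∈ range n, lam * (pcUp n A c).card
        ≤ ∑ c ∈ range n, (pcI n A c + lam ^ 2) := by
          refine sum_le_sum fun c _ => ?_
          have := pcC_sq_le n A c
          rcases le_or_gt (pcUp n A c).card lam with h | h
          · nlinarith
          · nlinarith
      _ = ∑ c ∈ range n, pcI n A c + n * lam ^ 2 := by
          rw [sum_add_distrib]
          simp
  -- step 2
  have h2 : θ * ∑ c ∈ range n, pcI n A c ≤ n ^ 2 * θ ^ 2 + 2 * N := by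
    rw [pcC_sumI, mul_sum]
    calc ∑ q ∈ (range n ×ˢ range n).filter (fun q => q.1 < q.2), θ * (pcS n A q).card
        ≤ ∑ q ∈ (range n ×ˢ range n).filter (fun q => q.1 < q.2),
            (θ ^ 2 + 2 * ((pcS n A q ×ˢ pcS n A q).filter fun p => p.1 < p.2).card) :=
          sum_le_sum fun q _ => pcC_theta _ θ
      _ = ((range n ×ˢ range n).filter (fun q => q.1 < q.2)).card * θ ^ 2
            + 2 * ∑ q ∈ (range n ×ˢ range n).filter (fun q => q.1 < q.2),
              ((pcS n A q ×ˢ pcS n A q).filter fun p => p.1 < p.2).card := by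
          rw [sum_add_distrib, mul_sum]
          simp
      _ ≤ n ^ 2 * θ ^ 2 + 2 * N := by
          have hc : ((range n ×ˢ range n).filter (fun q => q.1 < q.2)).card ≤ n ^ 2 := by
            refine (card_filter_le _ _).trans ?_
            simp [sq]
          have := pcC_sumP n A
          gcongr
  rw [pcC_ham, ← mul_sum]
  calc θ * lam * (2 * ∑ c ∈ range n, (pcUp n A c).card)
      = 2 * θ * (lam * ∑ c ∈ range n, (pcUp n A c).card) := by ring
    _ ≤ 2 * θ * (∑ c ∈ range n, pcI n A c + n * lam ^ 2) := Nat.mul_le_mul_left _ h1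
    _ = 2 * (θ * ∑ c ∈ range n, pcI n A c) + 2 * θ * n * lam ^ 2 := by ring
    _ ≤ 2 * (n ^ 2 * θ ^ 2 + 2 * N) + 2 * θ * n * lam ^ 2 := by gcongr
    _ = 2 * n ^ 2 * θ ^ 2 + 4 * N + 2 * θ * n * lam ^ 2 := by ring

/-- `boundC` with `θ = u`, `lam = M u`. -/
theorem main_boundC (M u n : ℕ) (hM : 1 ≤ M) (hu : 1 ≤ u) (h1 : M ^ 2 * u ≤ n)
    (h2 : n < 2 * (M ^ 2 * u)) (A : ℕ → ℕ → Bool) :
    ∃ B : ℕ → ℕ → Bool, free2 n true true false false B ∧
      (hamN n A B : ℝ) ≤ 4 * (n : ℝ) ^ 2 / M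
        + 16 * (M : ℝ) ^ 3 * ((copies2 n true true false false A).card : ℝ) / (n : ℝ) ^ 2 := by
  refine ⟨sortCol n A, free2_sortCol n A, ?_⟩
  have hb := boundC n u (M * u) A
  set N := (copies2 n true true false false A).card with hN
  set Hm := hamN n A (sortCol n A) with hHm
  have hbR : (u : ℝ) * (M * u) * Hm ≤ 2 * (n : ℝ) ^ 2 * u ^ 2 + 4 * N + 2 * u * n * (M * u) ^ 2 := by
    exact_mod_cast hb
  have hMR : (1 : ℝ) ≤ M := by exact_mod_cast hM
  have huR : (1 : ℝ) ≤ u := by exact_mod_cast hu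
  have h1R : (M : ℝ) ^ 2 * u ≤ n := by exact_mod_cast h1
  have h2R : (n : ℝ) ≤ 2 * ((M : ℝ) ^ 2 * u) := by exact_mod_cast h2.le
  have hnpos : (0 : ℝ) < n := lt_of_lt_of_le (by positivity) h1R
  have hN0 : (0 : ℝ) ≤ N := by positivity
  set t : ℝ := (N : ℝ) / (n : ℝ) ^ 2 with ht
  have ht0 : 0 ≤ t := by positivity
  have hNt : (N : ℝ) = t * (n : ℝ) ^ 2 := by
    rw [ht]; field_simp
  have e1 : 16 * (M : ℝ) ^ 3 * (N : ℝ) / (n : ℝ) ^ 2 = 16 * (M : ℝ) ^ 3 * t := by
    rw [ht]; ring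
  rw [e1]
  have hpos : (0 : ℝ) < M * u ^ 2 := by positivity
  refine le_of_mul_le_mul_left ?_ hpos
  have e2 : (M : ℝ) * u ^ 2 * (4 * (n : ℝ) ^ 2 / M + 16 * (M : ℝ) ^ 3 * t)
      = 4 * (n : ℝ) ^ 2 * u ^ 2 + 16 * (M : ℝ) ^ 4 * u ^ 2 * t := by
    field_simp
  rw [e2]
  have h3 : 2 * (u : ℝ) * n * (M * u) ^ 2 ≤ 2 * (n : ℝ) ^ 2 * u ^ 2 := by
    have : 2 * (u : ℝ) * n * (M * u) ^ 2 = 2 * n * u ^ 2 * ((M : ℝ) ^ 2 * u) := by ring
    rw [this]
    have : 2 * (n : ℝ) ^ 2 * u ^ 2 = 2 * n * u ^ 2 * n := by ring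
    rw [this]
    gcongr
  have h4 : 4 * (N : ℝ) ≤ 16 * (M : ℝ) ^ 4 * u ^ 2 * t := by
    rw [hNt]
    have h5 : (n : ℝ) ^ 2 ≤ (2 * ((M : ℝ) ^ 2 * u)) ^ 2 := by gcongr
    calc 4 * (t * (n : ℝ) ^ 2) ≤ 4 * (t * (2 * ((M : ℝ) ^ 2 * u)) ^ 2) :=
          mul_le_mul_of_nonneg_left (mul_le_mul_of_nonneg_left h5 ht0) (by norm_num)
      _ = 16 * (M : ℝ) ^ 4 * u ^ 2 * t := by ring
  calc (M : ℝ) * u ^ 2 * Hm = (u : ℝ) * (M * u) * Hm := by ring
    _ ≤ 2 * (n : ℝ) ^ 2 * u ^ 2 + 4 * N + 2 * u * n * (M * u) ^ 2 := hbR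
    _ ≤ 4 * (n : ℝ) ^ 2 * u ^ 2 + 16 * (M : ℝ) ^ 4 * u ^ 2 * t := by linarith

theorem RP_C : RP !![true, true; false, false] :=
  RP_of_bound true true false false 2 3 1 4 16 (by norm_num) (by norm_num)
    (fun M u n _ hM hu h1 h2 A => main_boundC M u n hM hu h1 h2 A)

end Vale.Agent.Lib.P037
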