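import Vale.Agent.Lib.P037.Pattern

namespace Vale.Agent.Lib.P037

open Finset

/-- reverse the order of the columns. -/
def revCols {n : ℕ} (A : Matrix (Fin n) (Fin n) Bool) : Matrix (Fin n) (Fin n) Bool :=
  fun r c => A r (Fin.rev c)

/-- conjugation of a column map by the two reversals. -/
def revMap {k n : ℕ} (g : Fin k → Fin n) : Fin k → Fin n := fun j => Fin.rev (g (Fin.rev j))

theorem revMap_revMap {k n : ℕ} (g : Fin k → Fin n) : revMap (revMap g) = g := by
  funext j
  simp [revMap]

theorem strictMono_revMap {k n : ℕ} {g : Fin k → Fin n} (hg : StrictMono g) :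
    StrictMono (revMap g) := by
  intro a b hab
  unfold revMap
  rw [Fin.rev_lt_rev]
  exact hg (Fin.rev_lt_rev.2 hab)

theorem isCopy_revMap {k n : ℕ} {H : Matrix (Fin k) (Fin k) Bool}
    {A : Matrix (Fin n) (Fin n) Bool} {f g : Fin k → Fin n} (h : IsCopy H A f g) :
    IsCopy (revCols H) (revCols A) f (revMap g) := by
  obtain ⟨hf, hg, hA⟩ := h
  refine ⟨hf, strictMono_revMap hg, fun i j => ?_⟩
  simp only [revCols, revMap, Fin.rev_rev]
  exact hA i (Fin.rev j)

theorem revCols_revCols {n : ℕ} (A : Matrix (Fin n) (Fin n) Bool) :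
    revCols (revCols A) = A := by
  funext r c
  simp [revCols]

theorem isCopy_revMap_iff {k n : ℕ} {H : Matrix (Fin k) (Fin k) Bool}
    {A : Matrix (Fin n) (Fin n) Bool} {f g : Fin k → Fin n} :
    IsCopy H A f g ↔ IsCopy (revCols H) (revCols A) f (revMap g) := by
  refine ⟨isCopy_revMap, fun h => ?_⟩
  have := isCopy_revMap h
  rwa [revCols_revCols, revCols_revCols, revMap_revMap] at this

/-- the involution on pairs of maps. -/
def revPerm (k n : ℕ) : Equiv.Perm ((Fin k → Fin n) × (Fin k → Fin n)) where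
  toFun p := (p.1, revMap p.2)
  invFun p := (p.1, revMap p.2)
  left_inv p := by simp [revMap_revMap]
  right_inv p := by simp [revMap_revMap]

theorem numCopies_revCols {k n : ℕ} (H : Matrix (Fin k) (Fin k) Bool)
    (A : Matrix (Fin n) (Fin n) Bool) :
    numCopies (revCols H) (revCols A) = numCopies H A := by
  unfold numCopies
  refine (Nat.card_congr ?_).symm
  exact Equiv.subtypeEquiv (revPerm k n) fun p => isCopy_revMap_iff

theorem isFree_revCols {k n : ℕ} (H : Matrix (Fin k) (Fin k) Bool)
    (B : Matrix (Fin n) (Fin n) Bool) : IsFree (revCols H) (revCols B) ↔ IsFree H B := by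
  unfold IsFree
  rw [numCopies_revCols]

theorem hamming_revCols {n : ℕ} (A B : Matrix (Fin n) (Fin n) Bool) :
    hamming (revCols A) (revCols B) = hamming A B := by
  unfold hamming
  refine Finset.card_bij (fun p _ => (p.1, Fin.rev p.2)) ?_ ?_ ?_
  · intro p hp
    rw [Finset.mem_filter] at hp ⊢
    exact ⟨Finset.mem_univ _, hp.2⟩
  · intro p _ p' _ h
    simp only [Prod.mk.injEq] at h
    exact Prod.ext h.1 (Fin.rev_injective h.2)
  · intro p hp
    refine ⟨(p.1, Fin.rev p.2), ?_, ?_⟩
    · rw [Finset.mem_filter] at hp ⊢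
      refine ⟨Finset.mem_univ _, ?_⟩
      simp only [revCols, Fin.rev_rev]
      exact hp.2
    · simp

theorem dist_revCols {k n : ℕ} (H : Matrix (Fin k) (Fin k) Bool)
    (A : Matrix (Fin n) (Fin n) Bool) :
    dist (revCols H) (revCols A) = dist H A := by
  unfold dist
  have : {d : ℕ | ∃ B : Matrix (Fin n) (Fin n) Bool, IsFree (revCols H) B ∧
      hamming (revCols A) B = d} =
      {d : ℕ | ∃ B : Matrix (Fin n) (Fin n) Bool, IsFree H B ∧ hamming A B = d} := by
    ext d
    constructor
    · rintro ⟨B, hB, hd⟩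
      refine ⟨revCols B, ?_, ?_⟩
      · rw [← isFree_revCols, revCols_revCols]; exact hB
      · rw [← hamming_revCols, revCols_revCols]; exact hd
    · rintro ⟨B, hB, hd⟩
      exact ⟨revCols B, (isFree_revCols H B).2 hB, by rw [hamming_revCols]; exact hd⟩
  rw [this]

theorem revCols_I2 :
    revCols (!![true, false; false, true] : Matrix (Fin 2) (Fin 2) Bool)
      = !![false, true; true, false] := by
  funext i j
  fin_cases i <;> fin_cases j <;> rfl

end Vale.Agent.Lib.P037
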