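import Vale.Agent.Lib.P037.Gen2
import Vale.Agent.Lib.P037.Sym

/-! # P037: symmetries of the removal property. -/

namespace Vale.Agent.Lib.P037

open Finset

/-- reverse the order of the rows. -/
def revRows {n : ℕ} (A : Matrix (Fin n) (Fin n) Bool) : Matrix (Fin n) (Fin n) Bool :=
  fun r c => A (Fin.rev r) c

/-- exchange zeros and ones. -/
def compl {n : ℕ} (A : Matrix (Fin n) (Fin n) Bool) : Matrix (Fin n) (Fin n) Bool :=
  fun r c => !(A r c)

/-- the distance is invariant under an involutive symmetry preserving copies and Hamming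
distance. -/
theorem dist_of_symm
    (τ : ∀ n : ℕ, Matrix (Fin n) (Fin n) Bool → Matrix (Fin n) (Fin n) Bool)
    (hinv : ∀ (n : ℕ) (A : Matrix (Fin n) (Fin n) Bool), τ n (τ n A) = A)
    (hnum : ∀ (k n : ℕ) (H : Matrix (Fin k) (Fin k) Bool) (A : Matrix (Fin n) (Fin n) Bool),
      numCopies (τ k H) (τ n A) = numCopies H A)
    (hham : ∀ (n : ℕ) (A B : Matrix (Fin n) (Fin n) Bool),
      hamming (τ n A) (τ n B) = hamming A B)
    {k n : ℕ} (H : Matrix (Fin k) (Fin k) Bool) (A : Matrix (Fin n) (Fin n) Bool) :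
    dist (τ k H) (τ n A) = dist H A := by
  unfold dist
  have : {d : ℕ | ∃ B : Matrix (Fin n) (Fin n) Bool, IsFree (τ k H) B ∧
      hamming (τ n A) B = d} =
      {d : ℕ | ∃ B : Matrix (Fin n) (Fin n) Bool, IsFree H B ∧ hamming A B = d} := by
    ext d
    constructor
    · rintro ⟨B, hB, hd⟩
      refine ⟨τ n B, ?_, ?_⟩
      · unfold IsFree at hB ⊢
        rw [← hnum, hinv]; exact hB
      · rw [← hham, hinv]; exact hd
    · rintro ⟨B, hB, hd⟩
      refine ⟨τ n B, ?_, ?_⟩
      · unfold IsFree at hB ⊢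
        rw [hnum]; exact hB
      · rw [hham]; exact hd
  rw [this]

/-- the removal property is invariant under such a symmetry. -/
theorem RP_of_symm
    (τ : ∀ n : ℕ, Matrix (Fin n) (Fin n) Bool → Matrix (Fin n) (Fin n) Bool)
    (hinv : ∀ (n : ℕ) (A : Matrix (Fin n) (Fin n) Bool), τ n (τ n A) = A)
    (hnum : ∀ (k n : ℕ) (H : Matrix (Fin k) (Fin k) Bool) (A : Matrix (Fin n) (Fin n) Bool),
      numCopies (τ k H) (τ n A) = numCopies H A)
    (hham : ∀ (n : ℕ) (A B : Matrix (Fin n) (Fin n) Bool),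
      hamming (τ n A) (τ n B) = hamming A B)
    {k : ℕ} (H : Matrix (Fin k) (Fin k) Bool) (h : RP H) : RP (τ k H) := by
  obtain ⟨c, C, hc, hC, hall⟩ := h
  refine ⟨c, C, hc, hC, fun n hn ε h0 h1 A hA => ?_⟩
  have h2 : dist H (τ n A) = dist (τ k H) A := by
    rw [← dist_of_symm τ hinv hnum hham H (τ n A), hinv]
  have h3 : numCopies H (τ n A) = numCopies (τ k H) A := by
    rw [← hnum k n H (τ n A), hinv]
  have h4 := hall n hn ε h0 h1 (τ n A) (by rw [h2]; exact hA)
  rw [h3] at h4
  exact h4

theorem RP_revCols {k : ℕ} (H : Matrix (Fin k) (Fin k) Bool) (h : RP H) : RP (revCols H) :=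
  RP_of_symm (fun _ A => revCols A) (fun _ A => revCols_revCols A)
    (fun _ _ H A => numCopies_revCols H A) (fun _ A B => hamming_revCols A B) H h

/-! ### rows -/

theorem revRows_revRows {n : ℕ} (A : Matrix (Fin n) (Fin n) Bool) :
    revRows (revRows A) = A := by
  funext r c
  simp [revRows]

theorem isCopy_revMap_rows {k n : ℕ} {H : Matrix (Fin k) (Fin k) Bool}
    {A : Matrix (Fin n) (Fin n) Bool} {f g : Fin k → Fin n} (h : IsCopy H A f g) :
    IsCopy (revRows H) (revRows A) (revMap f) g := by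
  obtain ⟨hf, hg, hA⟩ := h
  refine ⟨strictMono_revMap hf, hg, fun i j => ?_⟩
  simp only [revRows, revMap, Fin.rev_rev]
  exact hA (Fin.rev i) j

theorem isCopy_revMap_rows_iff {k n : ℕ} {H : Matrix (Fin k) (Fin k) Bool}
    {A : Matrix (Fin n) (Fin n) Bool} {f g : Fin k → Fin n} :
    IsCopy H A f g ↔ IsCopy (revRows H) (revRows A) (revMap f) g := by
  refine ⟨isCopy_revMap_rows, fun h => ?_⟩
  have := isCopy_revMap_rows h
  rwa [revRows_revRows, revRows_revRows, revMap_revMap] at this

/-- the involution on pairs of maps (rows). -/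
def revPermRows (k n : ℕ) : Equiv.Perm ((Fin k → Fin n) × (Fin k → Fin n)) where
  toFun p := (revMap p.1, p.2)
  invFun p := (revMap p.1, p.2)
  left_inv p := by simp [revMap_revMap]
  right_inv p := by simp [revMap_revMap]

theorem numCopies_revRows {k n : ℕ} (H : Matrix (Fin k) (Fin k) Bool)
    (A : Matrix (Fin n) (Fin n) Bool) :
    numCopies (revRows H) (revRows A) = numCopies H A := by
  unfold numCopies
  refine (Nat.card_congr ?_).symm
  exact Equiv.subtypeEquiv (revPermRows k n) fun p => isCopy_revMap_rows_iff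

theorem hamming_revRows {n : ℕ} (A B : Matrix (Fin n) (Fin n) Bool) :
    hamming (revRows A) (revRows B) = hamming A B := by
  unfold hamming
  refine Finset.card_bij (fun p _ => (Fin.rev p.1, p.2)) ?_ ?_ ?_
  · intro p hp
    rw [Finset.mem_filter] at hp ⊢
    exact ⟨Finset.mem_univ _, hp.2⟩
  · intro p _ p' _ h
    simp only [Prod.mk.injEq] at h
    exact Prod.ext (Fin.rev_injective h.1) h.2
  · intro p hp
    refine ⟨(Fin.rev p.1, p.2), ?_, ?_⟩
    · rw [Finset.mem_filter] at hp ⊢
      refine ⟨Finset.mem_univ _, ?_⟩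
      simp only [revRows, Fin.rev_rev]
      exact hp.2
    · simp

theorem RP_revRows {k : ℕ} (H : Matrix (Fin k) (Fin k) Bool) (h : RP H) : RP (revRows H) :=
  RP_of_symm (fun _ A => revRows A) (fun _ A => revRows_revRows A)
    (fun _ _ H A => numCopies_revRows H A) (fun _ A B => hamming_revRows A B) H h

/-! ### complement -/

theorem compl_compl_mat {n : ℕ} (A : Matrix (Fin n) (Fin n) Bool) :
    compl (compl A) = A := by
  funext r c
  simp [compl]

theorem isCopy_compl_iff {k n : ℕ} {H : Matrix (Fin k) (Fin k) Bool}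
    {A : Matrix (Fin n) (Fin n) Bool} {f g : Fin k → Fin n} :
    IsCopy H A f g ↔ IsCopy (compl H) (compl A) f g := by
  constructor
  · rintro ⟨h1, h2, h3⟩
    refine ⟨h1, h2, fun i j => ?_⟩
    show (!(A (f i) (g j))) = !(H i j)
    rw [h3]
  · rintro ⟨h1, h2, h3⟩
    refine ⟨h1, h2, fun i j => ?_⟩
    have h4 : (!(A (f i) (g j))) = !(H i j) := h3 i j
    exact Bool.not_inj h4

theorem numCopies_compl {k n : ℕ} (H : Matrix (Fin k) (Fin k) Bool)
    (A : Matrix (Fin n) (Fin n) Bool) :
    numCopies (compl H) (compl A) = numCopies H A := by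
  unfold numCopies
  refine (Nat.card_congr ?_).symm
  exact Equiv.subtypeEquiv (Equiv.refl _) fun p => isCopy_compl_iff

theorem hamming_compl {n : ℕ} (A B : Matrix (Fin n) (Fin n) Bool) :
    hamming (compl A) (compl B) = hamming A B := by
  unfold hamming
  congr 1
  ext p
  simp only [Finset.mem_filter, Finset.mem_univ, true_and]
  show (!(A p.1 p.2)) ≠ !(B p.1 p.2) ↔ A p.1 p.2 ≠ B p.1 p.2
  exact not_congr ⟨fun h => Bool.not_inj h, fun h => by rw [h]⟩

theorem RP_compl {k : ℕ} (H : Matrix (Fin k) (Fin k) Bool) (h : RP H) : RP (compl H) :=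
  RP_of_symm (fun _ A => compl A) (fun _ A => compl_compl_mat A)
    (fun _ _ H A => numCopies_compl H A) (fun _ A B => hamming_compl A B) H h

/-! ### transpose -/

theorem isCopy_transpose_iff {k n : ℕ} {H : Matrix (Fin k) (Fin k) Bool}
    {A : Matrix (Fin n) (Fin n) Bool} {f g : Fin k → Fin n} :
    IsCopy H A f g ↔ IsCopy (Matrix.transpose H) (Matrix.transpose A) g f := by
  unfold IsCopy
  simp only [Matrix.transpose_apply]
  constructor
  · rintro ⟨h1, h2, h3⟩
    exact ⟨h2, h1, fun i j => h3 j i⟩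
  · rintro ⟨h1, h2, h3⟩
    exact ⟨h2, h1, fun i j => h3 j i⟩

theorem numCopies_transpose {k n : ℕ} (H : Matrix (Fin k) (Fin k) Bool)
    (A : Matrix (Fin n) (Fin n) Bool) :
    numCopies (Matrix.transpose H) (Matrix.transpose A) = numCopies H A := by
  unfold numCopies
  refine (Nat.card_congr ?_).symm
  exact Equiv.subtypeEquiv (Equiv.prodComm _ _) fun p => isCopy_transpose_iff

theorem hamming_transpose {n : ℕ} (A B : Matrix (Fin n) (Fin n) Bool) :
    hamming (Matrix.transpose A) (Matrix.transpose B) = hamming A B := by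
  unfold hamming
  refine Finset.card_bij (fun p _ => (p.2, p.1)) ?_ ?_ ?_
  · intro p hp
    rw [Finset.mem_filter] at hp ⊢
    exact ⟨Finset.mem_univ _, hp.2⟩
  · intro p _ p' _ h
    simp only [Prod.mk.injEq] at h
    exact Prod.ext h.2 h.1
  · intro p hp
    refine ⟨(p.2, p.1), ?_, ?_⟩
    · rw [Finset.mem_filter] at hp ⊢
      exact ⟨Finset.mem_univ _, hp.2⟩
    · simp

theorem RP_transpose {k : ℕ} (H : Matrix (Fin k) (Fin k) Bool) (h : RP H) :
    RP (Matrix.transpose H) :=
  RP_of_symm (fun _ A => Matrix.transpose A) (fun _ A => Matrix.transpose_transpose A)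
    (fun _ _ H A => numCopies_transpose H A) (fun _ A B => hamming_transpose A B) H h

theorem revCols_two (a b c d : Bool) : revCols !![a, b; c, d] = !![b, a; d, c] := by
  funext i j
  fin_cases i <;> fin_cases j <;> rfl

theorem revRows_two (a b c d : Bool) : revRows !![a, b; c, d] = !![c, d; a, b] := by
  funext i j
  fin_cases i <;> fin_cases j <;> rfl

theorem compl_two (a b c d : Bool) : compl !![a, b; c, d] = !![!a, !b; !c, !d] := by
  funext i j
  fin_cases i <;> fin_cases j <;> rfl

theorem transpose_two (a b c d : Bool) :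
    Matrix.transpose !![a, b; c, d] = !![a, c; b, d] := by
  funext i j
  fin_cases i <;> fin_cases j <;> rfl

end Vale.Agent.Lib.P037
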