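import Vale.Agent.Lib.P037.I2RP
import Vale.Agent.Lib.P037.PA
import Vale.Agent.Lib.P037.PC
import Vale.Agent.Lib.P037.Sym2
import Vale.Agent.Lib.P037.PB.Params

namespace Vale.Agent.Lib.P037

theorem RP_e1 (a b c d : Bool) (h : RP !![a, b; c, d]) : RP !![b, a; d, c] :=
  (revCols_two a b c d) ▸ RP_revCols _ h

theorem RP_e2 (a b c d : Bool) (h : RP !![a, b; c, d]) : RP !![c, d; a, b] :=
  (revRows_two a b c d) ▸ RP_revRows _ h

theorem RP_e3 (a b c d : Bool) (h : RP !![a, b; c, d]) : RP !![!a, !b; !c, !d] :=
  (compl_two a b c d) ▸ RP_compl _ h

theorem RP_e4 (a b c d : Bool) (h : RP !![a, b; c, d]) : RP !![a, c; b, d] :=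
  (transpose_two a b c d) ▸ RP_transpose _ h

theorem RP_1111 : RP !![true, true; true, true] := RP_J
theorem RP_0000 : RP !![false, false; false, false] := RP_e3 true true true true RP_J
theorem RP_1100 : RP !![true, true; false, false] := RP_C
theorem RP_0011 : RP !![false, false; true, true] := RP_e3 true true false false RP_C
theorem RP_1010 : RP !![true, false; true, false] := RP_e4 true true false false RP_C
theorem RP_0101 : RP !![false, true; false, true] := RP_e3 true false true false RP_1010
theorem RP_1001 : RP !![true, false; false, true] := RP_I2
theorem RP_0110 : RP !![false, true; true, false] := RP_e1 true false false true RP_I2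
theorem RP_1110 : RP !![true, true; true, false] := PB.RP_B
theorem RP_1101 : RP !![true, true; false, true] := RP_e1 true true true false RP_1110
theorem RP_1011 : RP !![true, false; true, true] := RP_e2 true true true false RP_1110
theorem RP_0111 : RP !![false, true; true, true] := RP_e2 true true false true RP_1101
theorem RP_0001 : RP !![false, false; false, true] := RP_e3 true true true false RP_1110
theorem RP_0010 : RP !![false, false; true, false] := RP_e3 true true false true RP_1101
theorem RP_0100 : RP !![false, true; false, false] := RP_e3 true false true true RP_1011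
theorem RP_1000 : RP !![true, false; false, false] := RP_e3 false true true true RP_0111

/-- the removal property for all sixteen `2 × 2` patterns. -/
theorem RP_all2 (H : Matrix (Fin 2) (Fin 2) Bool) : RP H := by
  rw [Matrix.eta_fin_two H]
  generalize H 0 0 = a
  generalize H 0 1 = b
  generalize H 1 0 = c
  generalize H 1 1 = d
  cases a <;> cases b <;> cases c <;> cases d
  · exact RP_0000
  · exact RP_0001
  · exact RP_0010
  · exact RP_0011
  · exact RP_0100
  · exact RP_0101
  · exact RP_0110
  · exact RP_0111
  · exact RP_1000
  · exact RP_1001
  · exact RP_1010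
  · exact RP_1011
  · exact RP_1100
  · exact RP_1101
  · exact RP_1110
  · exact RP_1111

end Vale.Agent.Lib.P037
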