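import Mathlib

/-!
# P037: polynomial removal for the ordered pattern I2 = [[1,0],[0,1]]

Working definitions over `ℕ`-indexed Boolean arrays (only the `n × n` corner matters).
See notes/P037_blueprint.md.
-/

namespace Vale.Agent.Lib.P037

open Finset

/-- Ordered copies `(r1,r2,c1,c2)` of `[[1,0],[0,1]]` in the `n × n` corner of `A`. -/
def copiesN (n : ℕ) (A : ℕ → ℕ → Bool) : Finset (ℕ × ℕ × ℕ × ℕ) :=
  (range n ×ˢ range n ×ˢ range n ×ˢ range n).filter fun p =>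
    p.1 < p.2.1 ∧ p.2.2.1 < p.2.2.2 ∧
    A p.1 p.2.2.1 = true ∧ A p.1 p.2.2.2 = false ∧
    A p.2.1 p.2.2.1 = false ∧ A p.2.1 p.2.2.2 = true

/-- No ordered copy of `[[1,0],[0,1]]` in the `n × n` corner. -/
def freeN (n : ℕ) (B : ℕ → ℕ → Bool) : Prop :=
  ∀ r1 r2 c1 c2, r1 < r2 → r2 < n → c1 < c2 → c2 < n →
    ¬ (B r1 c1 = true ∧ B r1 c2 = false ∧ B r2 c1 = false ∧ B r2 c2 = true)

/-- Hamming distance of the `n × n` corners. -/
def hamN (n : ℕ) (A B : ℕ → ℕ → Bool) : ℕ :=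
  ((range n ×ˢ range n).filter fun p => A p.1 p.2 ≠ B p.1 p.2).card

/-- The `j`-th strip of rows (strip length `t`). -/
def strip (n t j : ℕ) : Finset ℕ := (range n).filter fun r => r / t = j

/-- Number of ones of column `c` inside the row set `T`. -/
def deg (T : Finset ℕ) (A : ℕ → ℕ → Bool) (c : ℕ) : ℕ := (T.filter fun r => A r c = true).card

/-- Number of ones of row `r` (columns `< n`). -/
def rowSize (n : ℕ) (A : ℕ → ℕ → Bool) (r : ℕ) : ℕ := ((range n).filter fun c => A r c = true).card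

/-- Sorting key: injective on `range n`, smaller key means at least as many ones. -/
def key (n : ℕ) (A : ℕ → ℕ → Bool) (r : ℕ) : ℕ := (n - rowSize n A r) * n + r

/-- Rank of `r` in `T` with respect to the key `κ` (1-based on `T`). -/
def rk (T : Finset ℕ) (κ : ℕ → ℕ) (r : ℕ) : ℕ := (T.filter fun x => κ x ≤ κ r).card

/-- Unordered-in-rows-and-columns `2K_2` quadruples `(x,y,c,c')` with rows in `T`. -/
def quad (T : Finset ℕ) (n : ℕ) (A : ℕ → ℕ → Bool) : Finset (ℕ × ℕ × ℕ × ℕ) :=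
  (T ×ˢ T ×ˢ range n ×ˢ range n).filter fun p =>
    A p.1 p.2.2.1 = true ∧ A p.1 p.2.2.2 = false ∧
    A p.2.1 p.2.2.1 = false ∧ A p.2.1 p.2.2.2 = true

/-- Bucket of the value `x`: block length `z`, `q` blocks per bucket, shift `σ`. -/
def bk (z q σ x : ℕ) : ℕ := (x / z + σ) / q

/-- degree of column `c` in strip `j`. -/
def dg (n t : ℕ) (A : ℕ → ℕ → Bool) (j c : ℕ) : ℕ := deg (strip n t j) A c

/-- rank of row `r` inside its own strip. -/
def rho (n t : ℕ) (A : ℕ → ℕ → Bool) (r : ℕ) : ℕ := rk (strip n t (r / t)) (key n A) r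

/-- columns that are bad for strip `j` (their degree lies in the first block of a bucket). -/
def badCols (n t z q : ℕ) (A : ℕ → ℕ → Bool) (σ : ℕ → ℕ) (j : ℕ) : Finset ℕ :=
  (range n).filter fun c => (dg n t A j c / z + σ j) % q = 0

/-- all bad columns. -/
def Bad (n t z q : ℕ) (A : ℕ → ℕ → Bool) (σ : ℕ → ℕ) : Finset ℕ :=
  (range (n / t + 1)).biUnion (badCols n t z q A σ)

/-- bucket level of column `c` in strip `j`. -/
def lev (n t z q : ℕ) (A : ℕ → ℕ → Bool) (σ : ℕ → ℕ) (j c : ℕ) : ℕ :=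
  bk z q (σ j) (dg n t A j c)

/-- the type set `F(j,l)`: good columns of level at least `l` in strip `j`. -/
def F (n t z q : ℕ) (A : ℕ → ℕ → Bool) (σ : ℕ → ℕ) (j l : ℕ) : Finset ℕ :=
  (range n \ Bad n t z q A σ).filter fun c => l ≤ lev n t z q A σ j c

/-- index set of pairs of types `((i,l),(j,l'))` with `i < j`. -/
def idx (K Lv : ℕ) : Finset ((ℕ × ℕ) × (ℕ × ℕ)) :=
  ((range K ×ˢ range Lv) ×ˢ (range K ×ˢ range Lv)).filter fun p => p.1.1 < p.2.1

/-- union of all the covers. -/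
def Cov (n t z q : ℕ) (Cv : ℕ → ℕ → ℕ → ℕ → Finset ℕ) : Finset ℕ :=
  (idx (n / t + 1) (t / z / q + 2)).biUnion fun p => Cv p.1.1 p.1.2 p.2.1 p.2.2

/-- the exact chain approximation inside every strip. -/
def chainMat (n t : ℕ) (A : ℕ → ℕ → Bool) (r c : ℕ) : Bool :=
  decide (rho n t A r ≤ dg n t A (r / t) c)

/-- the final `I2`-free matrix. -/
def Bmat (n t z q : ℕ) (A : ℕ → ℕ → Bool) (σ : ℕ → ℕ) (Cv : ℕ → ℕ → ℕ → ℕ → Finset ℕ)
    (r c : ℕ) : Bool :=
  decide (c ∉ Bad n t z q A σ ∧ c ∉ Cov n t z q Cv ∧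
    bk z q (σ (r / t)) (rho n t A r) ≤ lev n t z q A σ (r / t) c)

/-- number of increasing pairs in `X × Y`. -/
def incPairs (X Y : Finset ℕ) : ℕ := ((X ×ˢ Y).filter fun p => p.1 < p.2).card

end Vale.Agent.Lib.P037
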