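import Vale.Agent.Lib.P037.Pattern
import Vale.Agent.Lib.P037.Defs

namespace Vale.Agent.Lib.P037

open Finset

/-- extension of a matrix to an `ℕ`-indexed array. -/
def ext {n : ℕ} (A : Matrix (Fin n) (Fin n) Bool) : ℕ → ℕ → Bool :=
  fun r c => if h : r < n ∧ c < n then A ⟨r, h.1⟩ ⟨c, h.2⟩ else false

/-- restriction of an `ℕ`-indexed array to a matrix. -/
def res (n : ℕ) (B : ℕ → ℕ → Bool) : Matrix (Fin n) (Fin n) Bool :=
  fun r c => B r c

theorem ext_apply {n : ℕ} (A : Matrix (Fin n) (Fin n) Bool) {r c : ℕ} (hr : r < n) (hc : c < n) :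
    ext A r c = A ⟨r, hr⟩ ⟨c, hc⟩ := by
  unfold ext
  rw [dif_pos ⟨hr, hc⟩]

theorem strictMono_pair {n : ℕ} {a b : Fin n} (h : a < b) : StrictMono ![a, b] := by
  intro i j hij
  fin_cases i <;> fin_cases j
  · exact absurd hij (lt_irrefl _)
  · exact h
  · exact absurd hij (by decide)
  · exact absurd hij (lt_irrefl _)

open Classical in
theorem card_copiesN_le {n : ℕ} (A : Matrix (Fin n) (Fin n) Bool) :
    (copiesN n (ext A)).card ≤ numCopies !![true, false; false, true] A := by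
  unfold numCopies
  rw [Nat.card_eq_fintype_card, Fintype.card_subtype]
  refine Finset.card_le_card_of_surjOn
    (fun p : (Fin 2 → Fin n) × (Fin 2 → Fin n) =>
      ((p.1 0 : ℕ), (p.1 1 : ℕ), (p.2 0 : ℕ), (p.2 1 : ℕ))) ?_
  rintro ⟨r1, r2, c1, c2⟩ hp
  rw [Finset.mem_coe] at hp
  unfold copiesN at hp
  rw [Finset.mem_filter] at hp
  simp only [Finset.mem_product, Finset.mem_range] at hp
  obtain ⟨⟨hr1, hr2, hc1, hc2⟩, hr, hc, h11, h12, h21, h22⟩ := hp
  rw [ext_apply A hr1 hc1] at h11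
  rw [ext_apply A hr1 hc2] at h12
  rw [ext_apply A hr2 hc1] at h21
  rw [ext_apply A hr2 hc2] at h22
  refine ⟨(![⟨r1, hr1⟩, ⟨r2, hr2⟩], ![⟨c1, hc1⟩, ⟨c2, hc2⟩]), ?_, rfl⟩
  rw [Finset.mem_coe, Finset.mem_filter]
  refine ⟨Finset.mem_univ _, strictMono_pair hr, strictMono_pair hc, ?_⟩
  intro i j
  fin_cases i <;> fin_cases j
  · exact h11
  · exact h12
  · exact h21
  · exact h22

theorem isFree_res {n : ℕ} (B : ℕ → ℕ → Bool) (h : freeN n B) :
    IsFree !![true, false; false, true] (res n B) := by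
  unfold IsFree numCopies
  rw [Nat.card_eq_zero]
  left
  constructor
  rintro ⟨⟨f, g⟩, hf, hg, hA⟩
  have hr : f 0 < f 1 := hf (by decide)
  have hc : g 0 < g 1 := hg (by decide)
  exact h (f 0) (f 1) (g 0) (g 1) hr (f 1).2 hc (g 1).2 ⟨hA 0 0, hA 0 1, hA 1 0, hA 1 1⟩

theorem hamming_res {n : ℕ} (A : Matrix (Fin n) (Fin n) Bool) (B : ℕ → ℕ → Bool) :
    hamming A (res n B) = hamN n (ext A) B := by
  unfold hamming hamN
  refine Finset.card_bij (fun p _ => ((p.1 : ℕ), (p.2 : ℕ))) ?_ ?_ ?_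
  · intro p hp
    rw [Finset.mem_filter] at hp ⊢
    refine ⟨by simp, ?_⟩
    simp only
    rw [ext_apply A p.1.2 p.2.2]
    exact hp.2
  · intro p _ p' _ h
    simp only [Prod.mk.injEq] at h
    exact Prod.ext (Fin.ext h.1) (Fin.ext h.2)
  · rintro ⟨r, c⟩ hp
    rw [Finset.mem_filter] at hp
    simp only [Finset.mem_product, Finset.mem_range] at hp
    obtain ⟨⟨hr, hc⟩, hne⟩ := hp
    refine ⟨(⟨r, hr⟩, ⟨c, hc⟩), ?_, rfl⟩
    rw [Finset.mem_filter]
    refine ⟨Finset.mem_univ _, ?_⟩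
    rw [ext_apply A hr hc] at hne
    exact hne

theorem dist_le {k n : ℕ} (H : Matrix (Fin k) (Fin k) Bool) (A B : Matrix (Fin n) (Fin n) Bool)
    (hB : IsFree H B) : dist H A ≤ (hamming A B : ℝ) / (n : ℝ) ^ 2 := by
  unfold dist
  have h1 : sInf {d : ℕ | ∃ B : Matrix (Fin n) (Fin n) Bool, IsFree H B ∧ hamming A B = d} ≤
      hamming A B := Nat.sInf_le ⟨B, hB, rfl⟩
  have h2 : ((sInf {d : ℕ | ∃ B : Matrix (Fin n) (Fin n) Bool, IsFree H B ∧ hamming A B = d} : ℕ)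
      : ℝ) ≤ (hamming A B : ℝ) := by exact_mod_cast h1
  exact div_le_div_of_nonneg_right h2 (by positivity)

theorem hamming_self {n : ℕ} (A : Matrix (Fin n) (Fin n) Bool) : hamming A A = 0 := by
  unfold hamming
  simp

theorem one_le_numCopies_of_dist_pos {k n : ℕ} (H : Matrix (Fin k) (Fin k) Bool)
    (A : Matrix (Fin n) (Fin n) Bool) (h : 0 < dist H A) : 1 ≤ numCopies H A := by
  by_contra hcon
  have h0 : numCopies H A = 0 := by omega
  have := dist_le H A A h0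
  rw [hamming_self] at this
  simp at this
  linarith

end Vale.Agent.Lib.P037
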