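import Vale.Agent.Lib.P037.Defs

namespace Vale.Agent.Lib.P037

open Finset

theorem bk_mono (z q σ : ℕ) {x y : ℕ} (h : x ≤ y) : bk z q σ x ≤ bk z q σ y := by
  unfold bk
  exact Nat.div_le_div_right (Nat.add_le_add_right (Nat.div_le_div_right h) σ)

theorem bk_gap {z q σ x y : ℕ} (hz : 1 ≤ z) (hq : 1 ≤ q) (hgood : (x / z + σ) % q ≠ 0)
    (h : bk z q σ y < bk z q σ x) : y + z < x := by
  unfold bk at h
  set X := x / z + σ with hX
  set Y := y / z + σ with hY
  have h1 : Y < X / q * q := (Nat.div_lt_iff_lt_mul (by omega)).mp h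
  have h2 : q * (X / q) + X % q = X := Nat.div_add_mod X q
  have h3 : X / q * q = q * (X / q) := Nat.mul_comm _ _
  have h4 : Y + 2 ≤ X := by omega
  have h5 : y / z + 2 ≤ x / z := by omega
  have h6 : y < z * (y / z + 1) := by
    have := Nat.lt_mul_div_succ y (show 0 < z by omega)
    exact this
  have h7 : z * (x / z) ≤ x := Nat.mul_div_le x z
  have h8 : z * (y / z + 2) ≤ z * (x / z) := Nat.mul_le_mul_left z h5
  have h9 : z * (y / z + 2) = z * (y / z + 1) + z := by ring
  omega

theorem bk_same {z q σ x y : ℕ} (hz : 1 ≤ z) (hq : 1 ≤ q) (h : bk z q σ x ≤ bk z q σ y) :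
    x < y + z * q := by
  unfold bk at h
  set X := x / z + σ with hX
  set Y := y / z + σ with hY
  have h1 : X < q * (X / q + 1) := Nat.lt_mul_div_succ X (by omega)
  have h2 : q * (X / q + 1) ≤ q * (Y / q + 1) := Nat.mul_le_mul_left q (by omega)
  have h3 : q * (Y / q) ≤ Y := Nat.mul_div_le Y q
  have h4 : q * (Y / q + 1) = q * (Y / q) + q := by ring
  have h5 : x / z < y / z + q := by omega
  have h6 : x < z * (x / z + 1) := Nat.lt_mul_div_succ x (by omega)
  have h7 : z * (x / z + 1) ≤ z * (y / z + q) := Nat.mul_le_mul_left z (by omega)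
  have h8 : z * (y / z) ≤ y := Nat.mul_div_le y z
  have h9 : z * (y / z + q) = z * (y / z) + z * q := by ring
  omega

theorem bk_lt {z q σ x t : ℕ} (hz : 1 ≤ z) (hq : 1 ≤ q) (hσ : σ < q) (hx : x ≤ t) :
    bk z q σ x < t / z / q + 2 := by
  unfold bk
  have h1 : x / z ≤ t / z := Nat.div_le_div_right hx
  have h2 : (x / z + σ) / q ≤ (t / z + q) / q := Nat.div_le_div_right (by omega)
  have h3 : (t / z + q) / q = t / z / q + 1 := Nat.add_div_right _ (by omega)
  omega

/-- pigeonhole choice of the shift. -/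
theorem exists_shift (n z q : ℕ) (hq : 1 ≤ q) (f : ℕ → ℕ) :
    ∃ σ, σ < q ∧ q * ((range n).filter fun c => (f c / z + σ) % q = 0).card ≤ n := by
  classical
  by_contra hcon
  push Not at hcon
  have hsum : ∑ σ ∈ range q, ((range n).filter fun c => (f c / z + σ) % q = 0).card ≤ n := by
    have e1 : ∀ σ ∈ range q, ((range n).filter fun c => (f c / z + σ) % q = 0).card
        = ∑ c ∈ range n, if (f c / z + σ) % q = 0 then 1 else 0 := by
      intro σ _
      rw [card_filter]
    rw [sum_congr rfl e1, sum_comm]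
    calc ∑ c ∈ range n, ∑ σ ∈ range q, (if (f c / z + σ) % q = 0 then 1 else 0)
        ≤ ∑ c ∈ range n, 1 := by
          apply sum_le_sum
          intro c _
          rw [← card_filter]
          rw [card_le_one]
          intro a ha b hb
          rw [mem_filter, mem_range] at ha hb
          have h1 : (f c / z + a) % q = (f c / z + b) % q := by rw [ha.2, hb.2]
          have h2 : a % q = b % q := Nat.ModEq.add_left_cancel' (f c / z) h1
          rw [Nat.mod_eq_of_lt ha.1, Nat.mod_eq_of_lt hb.1] at h2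
          exact h2
      _ = n := by simp
  have hlt : ∑ σ ∈ range q, n <
      ∑ σ ∈ range q, q * ((range n).filter fun c => (f c / z + σ) % q = 0).card := by
    apply sum_lt_sum_of_nonempty
    · exact ⟨0, mem_range.mpr (by omega)⟩
    · intro σ hσ
      exact hcon σ (mem_range.mp hσ)
  rw [← mul_sum, sum_const, card_range, smul_eq_mul] at hlt
  have := Nat.mul_le_mul_left q hsum
  omega

end Vale.Agent.Lib.P037
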