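import Vale.Agent.Lib.P037.Rank

namespace Vale.Agent.Lib.P037

open Finset

theorem card_filter_prod_right {α β : Type*} (s : Finset α) (t : Finset β) (p : α × β → Prop)
    [DecidablePred p] :
    ((s ×ˢ t).filter p).card = ∑ b ∈ t, (s.filter fun a => p (a, b)).card := by
  simp only [Finset.card_filter]
  rw [Finset.sum_product_right]

theorem card_filter_prod_left {α β : Type*} (s : Finset α) (t : Finset β) (p : α × β → Prop)
    [DecidablePred p] :
    ((s ×ˢ t).filter p).card = ∑ a ∈ s, (t.filter fun b => p (a, b)).card := by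
  simp only [Finset.card_filter]
  rw [Finset.sum_product]

/-- entries `false` above the threshold and entries `true` below it are equinumerous -/
theorem chain_col_balance (A : ℕ → ℕ → Bool) (T : Finset ℕ) (κ : ℕ → ℕ)
    (hinj : Set.InjOn κ T) (c : ℕ) :
    (T.filter fun r => A r c = false ∧ rk T κ r ≤ deg T A c).card
      = (T.filter fun r => A r c = true ∧ deg T A c < rk T κ r).card := by
  have hd : deg T A c ≤ T.card := Finset.card_filter_le _ _
  have h1 := card_rk_le T κ hinj hd
  have h2 := Finset.card_filter_add_card_filter_not (s := T.filter fun r => rk T κ r ≤ deg T A c)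
    (fun r => A r c = true)
  have h3 := Finset.card_filter_add_card_filter_not (s := T.filter fun r => A r c = true)
    (fun r => rk T κ r ≤ deg T A c)
  rw [Finset.filter_filter, Finset.filter_filter] at h2 h3
  have h4 : (T.filter fun r => A r c = true).card = deg T A c := rfl
  rw [h1] at h2
  rw [h4] at h3
  have e1 : (T.filter fun r => rk T κ r ≤ deg T A c ∧ A r c = true)
      = T.filter fun r => A r c = true ∧ rk T κ r ≤ deg T A c :=
    Finset.filter_congr fun r _ => and_comm
  have e2 : (T.filter fun r => rk T κ r ≤ deg T A c ∧ ¬ A r c = true)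
      = T.filter fun r => A r c = false ∧ rk T κ r ≤ deg T A c :=
    Finset.filter_congr fun r _ => by
      rw [Bool.not_eq_true]; exact and_comm
  have e3 : (T.filter fun r => A r c = true ∧ ¬ rk T κ r ≤ deg T A c)
      = T.filter fun r => A r c = true ∧ deg T A c < rk T κ r :=
    Finset.filter_congr fun r _ => by rw [not_le]
  rw [e1, e2] at h2
  rw [e3] at h3
  omega

/-- the number of mismatches in one column -/
theorem chain_col_mismatch (A : ℕ → ℕ → Bool) (T : Finset ℕ) (κ : ℕ → ℕ)
    (hinj : Set.InjOn κ T) (c : ℕ) :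
    (T.filter fun r => A r c ≠ decide (rk T κ r ≤ deg T A c)).card
      = 2 * (T.filter fun r => A r c = false ∧ rk T κ r ≤ deg T A c).card := by
  have e : (T.filter fun r => A r c ≠ decide (rk T κ r ≤ deg T A c))
      = (T.filter fun r => A r c = false ∧ rk T κ r ≤ deg T A c)
        ∪ (T.filter fun r => A r c = true ∧ deg T A c < rk T κ r) := by
    rw [← Finset.filter_or]
    refine Finset.filter_congr fun r _ => ?_
    by_cases h : rk T κ r ≤ deg T A c
    · cases hA : A r c <;> simp [h]
    · cases hA : A r c <;> simp [h] <;> omega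
  rw [e, Finset.card_union_of_disjoint, ← chain_col_balance A T κ hinj c]
  · ring
  · rw [Finset.disjoint_filter]
    rintro r _ ⟨h1, _⟩ ⟨h2, _⟩
    rw [h1] at h2
    exact Bool.false_ne_true h2

/-- columns where row `r` has `false` and row `r'` has `true` -/
def colsFT (n : ℕ) (A : ℕ → ℕ → Bool) (r r' : ℕ) : Finset ℕ :=
  (range n).filter fun c => A r c = false ∧ A r' c = true

theorem colsFT_le (n : ℕ) (A : ℕ → ℕ → Bool) (r r' : ℕ) (h : rowSize n A r' ≤ rowSize n A r) :
    (colsFT n A r r').card ≤ (colsFT n A r' r).card := by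
  have h1 := Finset.card_filter_add_card_filter_not (s := (range n).filter fun c => A r c = true)
    (fun c => A r' c = true)
  have h2 := Finset.card_filter_add_card_filter_not (s := (range n).filter fun c => A r' c = true)
    (fun c => A r c = true)
  rw [Finset.filter_filter, Finset.filter_filter] at h1 h2
  have e1 : ((range n).filter fun c => A r' c = true ∧ A r c = true)
      = (range n).filter fun c => A r c = true ∧ A r' c = true :=
    Finset.filter_congr fun c _ => and_comm
  have e2 : ((range n).filter fun c => A r' c = true ∧ ¬ A r c = true) = colsFT n A r r' :=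
    Finset.filter_congr fun c _ => by rw [Bool.not_eq_true]; exact and_comm
  have e3 : ((range n).filter fun c => A r c = true ∧ ¬ A r' c = true) = colsFT n A r' r :=
    Finset.filter_congr fun c _ => by rw [Bool.not_eq_true]; exact and_comm
  rw [e3] at h1
  rw [e1, e2] at h2
  unfold rowSize at h
  omega

theorem card_quad (n : ℕ) (A : ℕ → ℕ → Bool) (T : Finset ℕ) :
    (quad T n A).card = ∑ x ∈ T, ∑ y ∈ T, (colsFT n A y x).card * (colsFT n A x y).card := by
  unfold quad
  rw [card_filter_prod_left]
  refine Finset.sum_congr rfl fun x _ => ?_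
  rw [card_filter_prod_left]
  refine Finset.sum_congr rfl fun y _ => ?_
  rw [← Finset.card_product]
  congr 1
  ext ⟨c, c'⟩
  simp only [colsFT, Finset.mem_filter, Finset.mem_product, Finset.mem_range]
  tauto

theorem lin_sq (θ a : ℕ) : θ * a ≤ a ^ 2 + θ ^ 2 := by
  rcases le_total θ a with h | h
  · nlinarith
  · nlinarith

/-- Chain approximation in one strip `T` (blueprint, Step 6). -/
theorem chain_approx (n : ℕ) (A : ℕ → ℕ → Bool) (T : Finset ℕ) (κ : ℕ → ℕ)
    (hinj : Set.InjOn κ T)
    (hmono : ∀ x ∈ T, ∀ y ∈ T, κ x ≤ κ y → rowSize n A y ≤ rowSize n A x)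
    (θ θ' : ℕ) :
    θ * θ' * ((T ×ˢ range n).filter fun p =>
        A p.1 p.2 ≠ decide (rk T κ p.1 ≤ deg T A p.2)).card
      ≤ 2 * (quad T n A).card + 2 * T.card ^ 2 * θ' ^ 2 + 2 * n * θ ^ 2 * θ' := by
  classical
  set m : ℕ → ℕ := fun c => (T.filter fun r => A r c = false ∧ rk T κ r ≤ deg T A c).card with hm
  set P : Finset (ℕ × ℕ) := (T ×ˢ T).filter fun p => rk T κ p.1 < rk T κ p.2 with hP
  -- total number of mismatches
  have htot : ((T ×ˢ range n).filter fun p =>
      A p.1 p.2 ≠ decide (rk T κ p.1 ≤ deg T A p.2)).card = ∑ c ∈ range n, 2 * m c := by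
    rw [card_filter_prod_right]
    exact Finset.sum_congr rfl fun c _ => chain_col_mismatch A T κ hinj c
  -- squares are bounded by pairs
  have hsq : ∀ c, m c ^ 2 ≤ (P.filter fun p => A p.1 c = false ∧ A p.2 c = true).card := by
    intro c
    have : m c ^ 2 = ((T.filter fun r => A r c = false ∧ rk T κ r ≤ deg T A c)
        ×ˢ (T.filter fun r => A r c = true ∧ deg T A c < rk T κ r)).card := by
      rw [Finset.card_product, ← chain_col_balance A T κ hinj c, sq]
    rw [this]
    apply Finset.card_le_card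
    rintro ⟨r, r'⟩ h
    simp only [Finset.mem_product, Finset.mem_filter] at h
    simp only [hP, Finset.mem_filter, Finset.mem_product]
    obtain ⟨⟨h1, h2, h3⟩, h4, h5, h6⟩ := h
    exact ⟨⟨⟨h1, h4⟩, lt_of_le_of_lt h3 h6⟩, h2, h5⟩
  have hsum_sq : ∑ c ∈ range n, m c ^ 2 ≤ ∑ p ∈ P, (colsFT n A p.1 p.2).card := by
    calc ∑ c ∈ range n, m c ^ 2
        ≤ ∑ c ∈ range n, (P.filter fun p => A p.1 c = false ∧ A p.2 c = true).card :=
          Finset.sum_le_sum fun c _ => hsq c
      _ = ((P ×ˢ range n).filter fun q => A q.1.1 q.2 = false ∧ A q.1.2 q.2 = true).card := by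
          rw [card_filter_prod_right]
      _ = ∑ p ∈ P, (colsFT n A p.1 p.2).card := by
          rw [card_filter_prod_left]
          rfl
  -- squares of the pair counts are bounded by the quadruples
  have hpair : ∑ p ∈ P, (colsFT n A p.1 p.2).card ^ 2 ≤ (quad T n A).card := by
    calc ∑ p ∈ P, (colsFT n A p.1 p.2).card ^ 2
        ≤ ∑ p ∈ P, (colsFT n A p.1 p.2).card * (colsFT n A p.2 p.1).card := by
          refine Finset.sum_le_sum fun p hp => ?_
          simp only [hP, Finset.mem_filter, Finset.mem_product] at hp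
          obtain ⟨⟨h1, h2⟩, h3⟩ := hp
          have hk : κ p.1 < κ p.2 := (rk_lt_iff T κ hinj h1 h2).1 h3
          have := colsFT_le n A p.1 p.2 (hmono p.1 h1 p.2 h2 hk.le)
          rw [sq]
          exact Nat.mul_le_mul_left _ this
      _ ≤ ∑ p ∈ T ×ˢ T, (colsFT n A p.1 p.2).card * (colsFT n A p.2 p.1).card :=
          Finset.sum_le_sum_of_subset (Finset.filter_subset _ _)
      _ = ∑ y ∈ T, ∑ x ∈ T, (colsFT n A y x).card * (colsFT n A x y).card := by
          rw [Finset.sum_product]
      _ = (quad T n A).card := by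
          rw [card_quad, Finset.sum_comm]
  have hPcard : P.card ≤ T.card ^ 2 := by
    calc P.card ≤ (T ×ˢ T).card := Finset.card_filter_le _ _
      _ = T.card ^ 2 := by rw [Finset.card_product, sq]
  -- linearisation
  have h1 : θ * ∑ c ∈ range n, m c ≤ ∑ c ∈ range n, m c ^ 2 + n * θ ^ 2 := by
    rw [Finset.mul_sum]
    calc ∑ c ∈ range n, θ * m c ≤ ∑ c ∈ range n, (m c ^ 2 + θ ^ 2) :=
          Finset.sum_le_sum fun c _ => lin_sq θ (m c)
      _ = _ := by rw [Finset.sum_add_distrib]; simp
  have h2 : θ' * ∑ p ∈ P, (colsFT n A p.1 p.2).card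
      ≤ (quad T n A).card + T.card ^ 2 * θ' ^ 2 := by
    rw [Finset.mul_sum]
    calc ∑ p ∈ P, θ' * (colsFT n A p.1 p.2).card
        ≤ ∑ p ∈ P, ((colsFT n A p.1 p.2).card ^ 2 + θ' ^ 2) :=
          Finset.sum_le_sum fun p _ => lin_sq θ' _
      _ = ∑ p ∈ P, (colsFT n A p.1 p.2).card ^ 2 + P.card * θ' ^ 2 := by
          rw [Finset.sum_add_distrib]; simp
      _ ≤ _ := add_le_add hpair (Nat.mul_le_mul_right _ hPcard)
  rw [htot, ← Finset.mul_sum]
  set Sm := ∑ c ∈ range n, m c
  set Sq := ∑ c ∈ range n, m c ^ 2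
  set Sa := ∑ p ∈ P, (colsFT n A p.1 p.2).card
  have h3 : θ' * (θ * Sm) ≤ θ' * (Sq + n * θ ^ 2) := Nat.mul_le_mul_left _ h1
  have h4 : θ' * Sq ≤ θ' * Sa := Nat.mul_le_mul_left _ hsum_sq
  nlinarith

end Vale.Agent.Lib.P037
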