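import Vale.Agent.Lib.P037.Lemma3

namespace Vale.Agent.Lib.P037

open Finset

/-- split a count of quadruples according to the last two coordinates -/
lemma card_filter4 (T R : Finset ℕ) (P : ℕ × ℕ × ℕ × ℕ → Prop) [DecidablePred P] :
    ((T ×ˢ T ×ˢ R ×ˢ R).filter P).card
      = ∑ c ∈ R, ∑ c' ∈ R, ((T ×ˢ T).filter fun q => P (q.1, q.2, c, c')).card := by
  simp only [Finset.card_filter, Finset.sum_product]
  calc ∑ x ∈ T, ∑ y ∈ T, ∑ c ∈ R, ∑ c' ∈ R, (if P (x, y, c, c') then 1 else 0)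
      = ∑ x ∈ T, ∑ c ∈ R, ∑ y ∈ T, ∑ c' ∈ R, (if P (x, y, c, c') then 1 else 0) :=
        Finset.sum_congr rfl (fun x _ => Finset.sum_comm)
    _ = ∑ c ∈ R, ∑ x ∈ T, ∑ y ∈ T, ∑ c' ∈ R, (if P (x, y, c, c') then 1 else 0) :=
        Finset.sum_comm
    _ = ∑ c ∈ R, ∑ x ∈ T, ∑ c' ∈ R, ∑ y ∈ T, (if P (x, y, c, c') then 1 else 0) :=
        Finset.sum_congr rfl (fun c _ => Finset.sum_congr rfl (fun x _ => Finset.sum_comm))
    _ = ∑ c ∈ R, ∑ c' ∈ R, ∑ x ∈ T, ∑ y ∈ T, (if P (x, y, c, c') then 1 else 0) :=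
        Finset.sum_congr rfl (fun c _ => Finset.sum_comm)

/-- summing a count of pairs over all strips -/
lemma sum_strip_pairs (n t : ℕ) (C : ℕ × ℕ → Prop) [DecidablePred C] :
    ∑ j ∈ range (n / t + 1), ((strip n t j ×ˢ strip n t j).filter C).card
      = ((range n ×ˢ range n).filter fun q => q.1 / t = q.2 / t ∧ C q).card := by
  have hmaps : Set.MapsTo (fun q : ℕ × ℕ => q.1 / t)
      (((range n ×ˢ range n).filter fun q => q.1 / t = q.2 / t ∧ C q : Finset (ℕ × ℕ)) : Set (ℕ × ℕ))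
      ((range (n / t + 1) : Finset ℕ) : Set ℕ) := by
    intro q hq
    have hq' : q ∈ (range n ×ˢ range n).filter fun q => q.1 / t = q.2 / t ∧ C q := hq
    rw [Finset.mem_filter, Finset.mem_product, Finset.mem_range] at hq'
    have h1 : q.1 / t ≤ n / t := Nat.div_le_div_right (le_of_lt hq'.1.1)
    show q.1 / t ∈ range (n / t + 1)
    rw [Finset.mem_range]
    omega
  rw [Finset.card_eq_sum_card_fiberwise hmaps]
  refine Finset.sum_congr rfl (fun j _ => ?_)
  congr 1
  ext q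
  simp only [strip, Finset.mem_filter, Finset.mem_product, Finset.mem_range]
  constructor
  · rintro ⟨⟨⟨h1, h2⟩, h3, h4⟩, h5⟩
    exact ⟨⟨⟨h1, h3⟩, by omega, h5⟩, h2⟩
  · rintro ⟨⟨⟨h1, h3⟩, h6, h5⟩, h2⟩
    exact ⟨⟨⟨h1, h2⟩, h3, by omega⟩, h5⟩

/-- rows with a one in column `c` and a zero in column `c'` -/
def Dset (n : ℕ) (A : ℕ → ℕ → Bool) (c c' : ℕ) : Finset ℕ :=
  (range n).filter fun x => A x c = true ∧ A x c' = false

/-- same-strip pairs for the ordered pair of columns `(c, c')` -/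
def Wc (n t : ℕ) (A : ℕ → ℕ → Bool) (c c' : ℕ) : ℕ :=
  ((Dset n A c c' ×ˢ Dset n A c' c).filter fun p => p.1 / t = p.2 / t).card

lemma Wc_symm (n t : ℕ) (A : ℕ → ℕ → Bool) (c c' : ℕ) : Wc n t A c c' = Wc n t A c' c := by
  unfold Wc
  refine Finset.card_bij (fun p _ => (p.2, p.1)) ?_ ?_ ?_
  · intro p hp
    rw [Finset.mem_filter, Finset.mem_product] at hp ⊢
    exact ⟨⟨hp.1.2, hp.1.1⟩, hp.2.symm⟩
  · intro p _ p' _ h
    have h1 := congrArg Prod.fst h
    have h2 := congrArg Prod.snd h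
    exact Prod.ext h2 h1
  · intro p hp
    rw [Finset.mem_filter, Finset.mem_product] at hp
    refine ⟨(p.2, p.1), ?_, rfl⟩
    rw [Finset.mem_filter, Finset.mem_product]
    exact ⟨⟨hp.1.2, hp.1.1⟩, hp.2.symm⟩

lemma Wc_self (n t : ℕ) (A : ℕ → ℕ → Bool) (c : ℕ) : Wc n t A c c = 0 := by
  unfold Wc
  have h : Dset n A c c = ∅ := by
    unfold Dset
    refine Finset.filter_eq_empty_iff.mpr ?_
    intro x _ hx
    rw [hx.1] at hx
    exact absurd hx.2 (by decide)
  rw [h]
  simp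

/-- copies with the ordered pair of columns `(c, c')` -/
def Kc (n : ℕ) (A : ℕ → ℕ → Bool) (c c' : ℕ) : ℕ :=
  if c < c' then incPairs (Dset n A c c') (Dset n A c' c) else 0

lemma Wc_le (n t : ℕ) (ht : 1 ≤ t) (A : ℕ → ℕ → Bool) (c c' : ℕ) :
    Wc n t A c c' ≤ 2 * t ^ 2 + 2 * (Kc n A c c' + Kc n A c' c) := by
  rcases lt_trichotomy c c' with h | h | h
  · have h1 := lemma3 t ht (Dset n A c c') (Dset n A c' c)
    have h2 : Kc n A c c' = incPairs (Dset n A c c') (Dset n A c' c) := by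
      unfold Kc
      rw [if_pos h]
    unfold Wc
    omega
  · subst h
    rw [Wc_self]
    omega
  · have h1 := lemma3 t ht (Dset n A c' c) (Dset n A c c')
    have h2 : Kc n A c' c = incPairs (Dset n A c' c) (Dset n A c c') := by
      unfold Kc
      rw [if_pos h]
    rw [Wc_symm]
    unfold Wc
    omega

lemma sum_Kc (n : ℕ) (A : ℕ → ℕ → Bool) :
    ∑ c ∈ range n, ∑ c' ∈ range n, Kc n A c c' = (copiesN n A).card := by
  unfold copiesN
  rw [card_filter4]
  refine Finset.sum_congr rfl (fun c _ => Finset.sum_congr rfl (fun c' _ => ?_))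
  unfold Kc
  split_ifs with h
  · unfold incPairs
    congr 1
    ext q
    simp only [Dset, Finset.mem_filter, Finset.mem_product, Finset.mem_range]
    constructor
    · rintro ⟨⟨⟨h1, h2, h3⟩, h4, h5, h6⟩, h7⟩
      exact ⟨⟨h1, h4⟩, h7, h, h2, h3, h6, h5⟩
    · rintro ⟨⟨h1, h4⟩, h7, _, h2, h3, h6, h5⟩
      exact ⟨⟨⟨h1, h2, h3⟩, h4, h5, h6⟩, h7⟩
  · symm
    rw [Finset.card_eq_zero]
    refine Finset.filter_eq_empty_iff.mpr ?_
    intro q _ hq
    exact h hq.2.1

/-- Blueprint, Step 7: same-strip `2K_2` quadruples are controlled by the number of copies. -/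
theorem sum_quad_le (n t : ℕ) (ht : 1 ≤ t) (A : ℕ → ℕ → Bool) :
    ∑ j ∈ range (n / t + 1), (quad (strip n t j) n A).card
      ≤ 2 * t ^ 2 * n ^ 2 + 4 * (copiesN n A).card := by
  have h1 : ∑ j ∈ range (n / t + 1), (quad (strip n t j) n A).card
      = ∑ c ∈ range n, ∑ c' ∈ range n, Wc n t A c c' := by
    calc ∑ j ∈ range (n / t + 1), (quad (strip n t j) n A).card
        = ∑ j ∈ range (n / t + 1), ∑ c ∈ range n, ∑ c' ∈ range n,
            ((strip n t j ×ˢ strip n t j).filter fun q =>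
              A q.1 c = true ∧ A q.1 c' = false ∧ A q.2 c = false ∧ A q.2 c' = true).card := by
          refine Finset.sum_congr rfl (fun j _ => ?_)
          unfold quad
          rw [card_filter4]
      _ = ∑ c ∈ range n, ∑ j ∈ range (n / t + 1), ∑ c' ∈ range n,
            ((strip n t j ×ˢ strip n t j).filter fun q =>
              A q.1 c = true ∧ A q.1 c' = false ∧ A q.2 c = false ∧ A q.2 c' = true).card :=
          Finset.sum_comm
      _ = ∑ c ∈ range n, ∑ c' ∈ range n, ∑ j ∈ range (n / t + 1),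
            ((strip n t j ×ˢ strip n t j).filter fun q =>
              A q.1 c = true ∧ A q.1 c' = false ∧ A q.2 c = false ∧ A q.2 c' = true).card :=
          Finset.sum_congr rfl (fun c _ => Finset.sum_comm)
      _ = ∑ c ∈ range n, ∑ c' ∈ range n, Wc n t A c c' := by
          refine Finset.sum_congr rfl (fun c _ => Finset.sum_congr rfl (fun c' _ => ?_))
          rw [sum_strip_pairs]
          unfold Wc
          congr 1
          ext q
          simp only [Dset, Finset.mem_filter, Finset.mem_product, Finset.mem_range]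
          constructor
          · rintro ⟨⟨h1, h2⟩, h3, h4, h5, h6, h7⟩
            exact ⟨⟨⟨h1, h4, h5⟩, h2, h7, h6⟩, h3⟩
          · rintro ⟨⟨⟨h1, h4, h5⟩, h2, h7, h6⟩, h3⟩
            exact ⟨⟨h1, h2⟩, h3, h4, h5, h6, h7⟩
  rw [h1]
  calc ∑ c ∈ range n, ∑ c' ∈ range n, Wc n t A c c'
      ≤ ∑ c ∈ range n, ∑ c' ∈ range n, (2 * t ^ 2 + 2 * (Kc n A c c' + Kc n A c' c)) :=
        Finset.sum_le_sum (fun c _ => Finset.sum_le_sum (fun c' _ => Wc_le n t ht A c c'))
    _ = 2 * t ^ 2 * n ^ 2 + 4 * (copiesN n A).card := by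
        have h2 : ∑ c ∈ range n, ∑ c' ∈ range n, Kc n A c' c = (copiesN n A).card := by
          rw [Finset.sum_comm]
          exact sum_Kc n A
        have h3 := sum_Kc n A
        simp only [Finset.sum_add_distrib, ← Finset.mul_sum, Finset.sum_const, Finset.card_range,
          smul_eq_mul]
        rw [h2, h3]
        ring

end Vale.Agent.Lib.P037
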