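import Vale.Agent.Lib.P037.Chain
import Vale.Agent.Lib.P037.QuadBound

namespace Vale.Agent.Lib.P037

open Finset

theorem mem_strip {n t j r : ℕ} : r ∈ strip n t j ↔ r < n ∧ r / t = j := by
  simp [strip]

theorem hamN_chainMat_split (n t : ℕ) (A : ℕ → ℕ → Bool) :
    hamN n A (chainMat n t A) = ∑ j ∈ range (n / t + 1),
      ((strip n t j ×ˢ range n).filter fun p =>
        A p.1 p.2 ≠ decide (rk (strip n t j) (key n A) p.1 ≤ deg (strip n t j) A p.2)).card := by
  unfold hamN
  rw [Finset.card_eq_sum_card_fiberwise (f := fun p : ℕ × ℕ => p.1 / t)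
    (t := range (n / t + 1))]
  · refine Finset.sum_congr rfl fun j _ => ?_
    congr 1
    ext ⟨r, c⟩
    rw [Finset.mem_filter, Finset.mem_filter, Finset.mem_filter, Finset.mem_product,
      Finset.mem_product, mem_strip, Finset.mem_range, Finset.mem_range]
    constructor
    · rintro ⟨⟨⟨h1, h2⟩, h3⟩, h4⟩
      subst h4
      exact ⟨⟨⟨h1, rfl⟩, h2⟩, h3⟩
    · rintro ⟨⟨⟨h1, h4⟩, h2⟩, h3⟩
      subst h4
      exact ⟨⟨⟨h1, h2⟩, h3⟩, rfl⟩
  · intro p hp
    have hp' := (Finset.mem_filter.1 hp).1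
    have h1 : p.1 < n := Finset.mem_range.1 (Finset.mem_product.1 hp').1
    exact Finset.mem_coe.2 (Finset.mem_range.2 (Nat.lt_succ_of_le (Nat.div_le_div_right h1.le)))

/-- Blueprint, Step 6 (sum of `chain_approx` over all strips, then `sum_quad_le`). -/
theorem ham_chainMat (n t : ℕ) (ht : 1 ≤ t) (A : ℕ → ℕ → Bool) (θ θ' : ℕ) :
    θ * θ' * hamN n A (chainMat n t A) ≤
      2 * (2 * t ^ 2 * n ^ 2 + 4 * (copiesN n A).card) + 2 * (n * t) * θ' ^ 2
        + 2 * ((n / t + 1) * n) * θ ^ 2 * θ' := by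
  rw [hamN_chainMat_split, Finset.mul_sum]
  have hstep : ∀ j ∈ range (n / t + 1),
      θ * θ' * ((strip n t j ×ˢ range n).filter fun p =>
        A p.1 p.2 ≠ decide (rk (strip n t j) (key n A) p.1 ≤ deg (strip n t j) A p.2)).card
      ≤ 2 * (quad (strip n t j) n A).card + 2 * (t * (strip n t j).card) * θ' ^ 2
        + 2 * n * θ ^ 2 * θ' := by
    intro j _
    have hsub : ∀ x ∈ strip n t j, x < n := fun x hx => (mem_strip.1 hx).1
    have h := chain_approx n A (strip n t j) (key n A)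
      (fun x hx y hy hxy => key_injOn n A (Finset.mem_coe.2 (Finset.mem_range.2 (hsub x hx)))
        (Finset.mem_coe.2 (Finset.mem_range.2 (hsub y hy))) hxy)
      (fun x hx y hy hxy => rowSize_le_of_key_le n A (hsub x hx) (hsub y hy) hxy) θ θ'
    refine h.trans ?_
    have hc := card_strip_le n t j ht
    have : (strip n t j).card ^ 2 ≤ t * (strip n t j).card := by
      rw [sq]; exact Nat.mul_le_mul_right _ hc
    have h2 : 2 * (strip n t j).card ^ 2 * θ' ^ 2 ≤ 2 * (t * (strip n t j).card) * θ' ^ 2 :=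
      Nat.mul_le_mul_right _ (Nat.mul_le_mul_left _ this)
    omega
  refine (Finset.sum_le_sum hstep).trans ?_
  rw [Finset.sum_add_distrib, Finset.sum_add_distrib, ← Finset.mul_sum, ← Finset.sum_mul,
    ← Finset.mul_sum, ← Finset.mul_sum, sum_card_strip n t ht, Finset.sum_const, Finset.card_range,
    smul_eq_mul]
  have hq := sum_quad_le n t ht A
  have e1 : 2 * (t * n) * θ' ^ 2 = 2 * (n * t) * θ' ^ 2 := by ring
  have e2 : (n / t + 1) * (2 * n * θ ^ 2 * θ') = 2 * ((n / t + 1) * n) * θ ^ 2 * θ' := by ring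
  rw [e1, e2]
  omega

end Vale.Agent.Lib.P037
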