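import Vale.Agent.Lib.P037.Defs

namespace Vale.Agent.Lib.P037

open Finset

/-- Blueprint, Step 4: one-dimensional cover lemma. -/
theorem cover1D (X Y : Finset ℕ) (s : ℕ) (hs : 1 ≤ s) :
    ∃ C : Finset ℕ, s * C.card ≤ incPairs X Y + s ^ 2 ∧
      ∀ a ∈ X, ∀ b ∈ Y, a ∉ C → b ∉ C → ¬ a < b := by
  classical
  set C1 : Finset ℕ := X.filter fun a => s ≤ (Y.filter fun b => a < b).card with hC1
  have h1 : s * C1.card ≤ incPairs X Y := by
    let S : Finset (Σ _ : ℕ, ℕ) := C1.sigma fun a => Y.filter fun b => a < b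
    have hS : s * C1.card ≤ S.card := by
      rw [card_sigma, mul_comm, ← smul_eq_mul]
      apply card_nsmul_le_sum
      intro a ha
      rw [hC1, mem_filter] at ha
      exact ha.2
    have hinj : S.card ≤ incPairs X Y := by
      unfold incPairs
      apply card_le_card_of_injOn (fun p => (p.1, p.2))
      · intro p hp
        have hp' : p ∈ S := hp
        rw [mem_sigma, hC1, mem_filter, mem_filter] at hp'
        show _ ∈ (X ×ˢ Y).filter fun p => p.1 < p.2
        rw [mem_filter, mem_product]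
        exact ⟨⟨hp'.1.1, hp'.2.1⟩, hp'.2.2⟩
      · intro p _ p' _ h
        simp only [Prod.mk.injEq] at h
        obtain ⟨a, b⟩ := p
        obtain ⟨a', b'⟩ := p'
        simp only at h
        obtain ⟨e1, e2⟩ := h
        subst e1 e2
        rfl
    exact le_trans hS hinj
  by_cases hne : (X \ C1).Nonempty
  · set a0 := (X \ C1).min' hne with ha0
    have ha0mem : a0 ∈ X \ C1 := min'_mem _ hne
    set C2 : Finset ℕ := Y.filter fun b => a0 < b with hC2
    have h2 : C2.card < s := by
      rw [mem_sdiff, hC1, mem_filter] at ha0mem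
      by_contra hcon
      push Not at hcon
      exact ha0mem.2 ⟨ha0mem.1, hcon⟩
    refine ⟨C1 ∪ C2, ?_, ?_⟩
    · have h3 := card_union_le C1 C2
      have h4 : s * (C1 ∪ C2).card ≤ s * (C1.card + C2.card) := Nat.mul_le_mul_left s h3
      have h5 : s * C2.card ≤ s * s := Nat.mul_le_mul_left s (le_of_lt h2)
      rw [Nat.mul_add] at h4
      rw [pow_two]
      omega
    · intro a ha b hb haC hbC hab
      rw [mem_union, not_or] at haC hbC
      have h6 : a0 ≤ a := min'_le _ _ (mem_sdiff.mpr ⟨ha, haC.1⟩)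
      apply hbC.2
      rw [hC2, mem_filter]
      exact ⟨hb, lt_of_le_of_lt h6 hab⟩
  · refine ⟨C1, by omega, ?_⟩
    intro a ha b _ haC _ _
    exact hne ⟨a, mem_sdiff.mpr ⟨ha, haC⟩⟩

end Vale.Agent.Lib.P037
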