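import Vale.Agent.Lib.P037.Defs

namespace Vale.Agent.Lib.P037

open Finset

/-- auxiliary: in a row set `T`, the rows with a one in column `a` and a zero in column `b`
are at least `deg a - deg b` many. -/
theorem card_diff_ge (T : Finset ℕ) (A : ℕ → ℕ → Bool) (a b z : ℕ)
    (h : deg T A b + z ≤ deg T A a) :
    z ≤ (T.filter fun r => A r a = true ∧ A r b = false).card := by
  have hsub : (T.filter fun r => A r a = true) ⊆
      (T.filter fun r => A r a = true ∧ A r b = false) ∪ (T.filter fun r => A r b = true) := by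
    intro r hr
    rw [mem_filter] at hr
    rw [mem_union, mem_filter, mem_filter]
    cases hb : A r b
    · exact Or.inl ⟨hr.1, hr.2, rfl⟩
    · exact Or.inr ⟨hr.1, rfl⟩
  have h1 := card_le_card hsub
  have h2 := card_union_le (T.filter fun r => A r a = true ∧ A r b = false)
    (T.filter fun r => A r b = true)
  unfold deg at h
  omega

/-- Blueprint, Step 4: every increasing pair of `X × Y` carries at least `z^2` copies. -/
theorem cross_count (n t z : ℕ) (ht : 1 ≤ t) (A : ℕ → ℕ → Bool) (i j : ℕ) (hij : i < j)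
    (X Y : Finset ℕ) (hX : X ⊆ range n) (hY : Y ⊆ range n)
    (h1 : ∀ a ∈ X, ∀ b ∈ Y, dg n t A i b + z ≤ dg n t A i a)
    (h2 : ∀ a ∈ X, ∀ b ∈ Y, dg n t A j a + z ≤ dg n t A j b) :
    z ^ 2 * incPairs X Y ≤ (copiesN n A).card := by
  classical
  set P : Finset (ℕ × ℕ) := (X ×ˢ Y).filter fun p => p.1 < p.2 with hP
  let D : ℕ × ℕ → Finset ℕ := fun p =>
    (strip n t i).filter fun r => A r p.1 = true ∧ A r p.2 = false
  let U : ℕ × ℕ → Finset ℕ := fun p =>
    (strip n t j).filter fun r => A r p.2 = true ∧ A r p.1 = false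
  let S : Finset (Σ _ : ℕ × ℕ, ℕ × ℕ) := P.sigma fun p => D p ×ˢ U p
  have hS : z ^ 2 * P.card ≤ S.card := by
    rw [card_sigma, mul_comm, ← smul_eq_mul]
    apply card_nsmul_le_sum
    intro p hp
    rw [hP, mem_filter, mem_product] at hp
    rw [card_product, pow_two]
    exact Nat.mul_le_mul (card_diff_ge _ A p.1 p.2 z (h1 p.1 hp.1.1 p.2 hp.1.2))
      (card_diff_ge _ A p.2 p.1 z (h2 p.1 hp.1.1 p.2 hp.1.2))
  have hinj : S.card ≤ (copiesN n A).card := by
    apply card_le_card_of_injOn (fun s => (s.2.1, s.2.2, s.1.1, s.1.2))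
    · intro s hs
      have hs' : s ∈ S := hs
      rw [mem_sigma, mem_product] at hs'
      obtain ⟨hp, hd, hu⟩ := hs'
      rw [hP, mem_filter, mem_product] at hp
      rw [mem_filter] at hd hu
      have hd1 := hd.1
      have hu1 := hu.1
      unfold strip at hd1 hu1
      rw [mem_filter, mem_range] at hd1 hu1
      have hlt : s.2.1 < s.2.2 := by
        by_contra hcon
        push Not at hcon
        have := Nat.div_le_div_right (c := t) hcon
        omega
      show _ ∈ copiesN n A
      unfold copiesN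
      rw [mem_filter, mem_product, mem_product, mem_product]
      exact ⟨⟨mem_range.mpr hd1.1, mem_range.mpr hu1.1, hX hp.1.1, hY hp.1.2⟩, hlt, hp.2,
        hd.2.1, hd.2.2, hu.2.2, hu.2.1⟩
    · intro s _ s' _ h
      simp only [Prod.mk.injEq] at h
      obtain ⟨e1, e2, e3, e4⟩ := h
      obtain ⟨⟨a, b⟩, ⟨r1, r2⟩⟩ := s
      obtain ⟨⟨a', b'⟩, ⟨r1', r2'⟩⟩ := s'
      simp only at e1 e2 e3 e4
      subst e1 e2 e3 e4
      rfl
  unfold incPairs
  exact le_trans hS hinj

end Vale.Agent.Lib.P037
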