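import Vale.Agent.Lib.P037.Bucket
import Vale.Agent.Lib.P037.Cross

namespace Vale.Agent.Lib.P037

open Finset

/-- Blueprint, Step 8a. -/
theorem Bad_card (n t z q : ℕ) (A : ℕ → ℕ → Bool) (σ : ℕ → ℕ)
    (hσc : ∀ j, q * (badCols n t z q A σ j).card ≤ n) :
    q * (Bad n t z q A σ).card ≤ (n / t + 1) * n := by
  classical
  unfold Bad
  calc q * ((range (n / t + 1)).biUnion (badCols n t z q A σ)).card
      ≤ q * ∑ j ∈ range (n / t + 1), (badCols n t z q A σ j).card :=
        Nat.mul_le_mul_left q card_biUnion_le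
    _ = ∑ j ∈ range (n / t + 1), q * (badCols n t z q A σ j).card := by rw [mul_sum]
    _ ≤ ∑ _j ∈ range (n / t + 1), n := sum_le_sum fun j _ => hσc j
    _ = (n / t + 1) * n := by rw [sum_const, card_range, smul_eq_mul]

/-- a column outside `Bad` is good for every strip `j < n / t + 1`. -/
theorem good_of_not_mem_Bad {n t z q : ℕ} {A : ℕ → ℕ → Bool} {σ : ℕ → ℕ} {c j : ℕ}
    (hc : c ∈ range n \ Bad n t z q A σ) (hj : j < n / t + 1) :
    (dg n t A j c / z + σ j) % q ≠ 0 := by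
  classical
  intro h0
  rw [mem_sdiff] at hc
  apply hc.2
  unfold Bad
  rw [mem_biUnion]
  refine ⟨j, mem_range.mpr hj, ?_⟩
  unfold badCols
  rw [mem_filter]
  exact ⟨hc.1, h0⟩

/-- Blueprint, Step 4: the number of increasing pairs between two type differences. -/
theorem incPairs_types_le (n t z q : ℕ) (ht : 1 ≤ t) (hz : 1 ≤ z) (hq : 1 ≤ q)
    (A : ℕ → ℕ → Bool) (σ : ℕ → ℕ) (i l j l' : ℕ) (hij : i < j) (hj : j < n / t + 1) :
    z ^ 2 * incPairs (F n t z q A σ i l \ F n t z q A σ j l')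
      (F n t z q A σ j l' \ F n t z q A σ i l) ≤ (copiesN n A).card := by
  classical
  apply cross_count n t z ht A i j hij
  · intro a ha
    rw [mem_sdiff] at ha
    have := ha.1
    unfold F at this
    rw [mem_filter, mem_sdiff] at this
    exact this.1.1
  · intro b hb
    rw [mem_sdiff] at hb
    have := hb.1
    unfold F at this
    rw [mem_filter, mem_sdiff] at this
    exact this.1.1
  · intro a ha b hb
    rw [mem_sdiff] at ha hb
    have ha1 := ha.1
    have hb1 := hb.1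
    have hb2 := hb.2
    unfold F at ha1 hb1 hb2
    rw [mem_filter] at ha1 hb1 hb2
    have hlt : lev n t z q A σ i b < l := by
      by_contra hcon
      push Not at hcon
      exact hb2 ⟨hb1.1, hcon⟩
    have hgood := good_of_not_mem_Bad (j := i) ha1.1 (by omega)
    have hbk : bk z q (σ i) (dg n t A i b) < bk z q (σ i) (dg n t A i a) :=
      lt_of_lt_of_le hlt ha1.2
    exact le_of_lt (bk_gap hz hq hgood hbk)
  · intro a ha b hb
    rw [mem_sdiff] at ha hb
    have ha1 := ha.1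
    have hb1 := hb.1
    have ha2 := ha.2
    unfold F at ha1 hb1 ha2
    rw [mem_filter] at ha1 hb1 ha2
    have hlt : lev n t z q A σ j a < l' := by
      by_contra hcon
      push Not at hcon
      exact ha2 ⟨ha1.1, hcon⟩
    have hgood := good_of_not_mem_Bad (j := j) hb1.1 hj
    have hbk : bk z q (σ j) (dg n t A j a) < bk z q (σ j) (dg n t A j b) :=
      lt_of_lt_of_le hlt hb1.2
    exact le_of_lt (bk_gap hz hq hgood hbk)

/-- Blueprint, Step 8b. -/
theorem Cov_card (n t z q s : ℕ) (ht : 1 ≤ t) (hz : 1 ≤ z) (hq : 1 ≤ q)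
    (A : ℕ → ℕ → Bool) (σ : ℕ → ℕ) (Cv : ℕ → ℕ → ℕ → ℕ → Finset ℕ)
    (hCv : ∀ i l j l', s * (Cv i l j l').card ≤
      incPairs (F n t z q A σ i l \ F n t z q A σ j l')
        (F n t z q A σ j l' \ F n t z q A σ i l) + s ^ 2) :
    s * z ^ 2 * (Cov n t z q Cv).card ≤
      ((n / t + 1) * (t / z / q + 2)) ^ 2 * ((copiesN n A).card + s ^ 2 * z ^ 2) := by
  classical
  unfold Cov
  set K := n / t + 1 with hK
  set Lv := t / z / q + 2 with hLv
  have hidx : (idx K Lv).card ≤ (K * Lv) ^ 2 := by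
    unfold idx
    calc _ ≤ ((range K ×ˢ range Lv) ×ˢ (range K ×ˢ range Lv)).card := card_filter_le _ _
      _ = (K * Lv) ^ 2 := by
        rw [card_product, card_product, card_range, card_range, pow_two]
  calc s * z ^ 2 * ((idx K Lv).biUnion fun p => Cv p.1.1 p.1.2 p.2.1 p.2.2).card
      ≤ s * z ^ 2 * ∑ p ∈ idx K Lv, (Cv p.1.1 p.1.2 p.2.1 p.2.2).card :=
        Nat.mul_le_mul_left _ card_biUnion_le
    _ = ∑ p ∈ idx K Lv, s * z ^ 2 * (Cv p.1.1 p.1.2 p.2.1 p.2.2).card := by rw [mul_sum]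
    _ ≤ ∑ _p ∈ idx K Lv, ((copiesN n A).card + s ^ 2 * z ^ 2) := by
        apply sum_le_sum
        intro p hp
        unfold idx at hp
        rw [mem_filter, mem_product, mem_product, mem_product, mem_range, mem_range, mem_range,
          mem_range] at hp
        have h1 := hCv p.1.1 p.1.2 p.2.1 p.2.2
        have h2 := incPairs_types_le n t z q ht hz hq A σ p.1.1 p.1.2 p.2.1 p.2.2 hp.2 hp.1.2.1
        calc s * z ^ 2 * (Cv p.1.1 p.1.2 p.2.1 p.2.2).card
            = z ^ 2 * (s * (Cv p.1.1 p.1.2 p.2.1 p.2.2).card) := by ring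
          _ ≤ z ^ 2 * (incPairs (F n t z q A σ p.1.1 p.1.2 \ F n t z q A σ p.2.1 p.2.2)
                (F n t z q A σ p.2.1 p.2.2 \ F n t z q A σ p.1.1 p.1.2) + s ^ 2) :=
              Nat.mul_le_mul_left _ h1
          _ = z ^ 2 * incPairs (F n t z q A σ p.1.1 p.1.2 \ F n t z q A σ p.2.1 p.2.2)
                (F n t z q A σ p.2.1 p.2.2 \ F n t z q A σ p.1.1 p.1.2) + s ^ 2 * z ^ 2 := by ring
          _ ≤ (copiesN n A).card + s ^ 2 * z ^ 2 := Nat.add_le_add_right h2 _
    _ = (idx K Lv).card * ((copiesN n A).card + s ^ 2 * z ^ 2) := by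
        rw [sum_const, smul_eq_mul]
    _ ≤ (K * Lv) ^ 2 * ((copiesN n A).card + s ^ 2 * z ^ 2) := Nat.mul_le_mul_right _ hidx

end Vale.Agent.Lib.P037
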