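import Mathlib

namespace Vale.Agent.Lib.P037

/-- Blueprint, Step 10: choice of `M = ⌈100/ε⌉` and `u = n / M^11`. -/
theorem final_arith (n N : ℕ) (ε : ℝ) (hn : 1 ≤ n) (hε0 : 0 < ε) (hε1 : ε < 1) (hN : 1 ≤ N)
    (h : ∀ M u : ℕ, 1 ≤ M → 1 ≤ u → M ^ 11 * u ≤ n → n < 2 * (M ^ 11 * u) →
      ε * (n : ℝ) ^ 2 ≤ 50 * (n : ℝ) ^ 2 / M + 320 * (M : ℝ) ^ 41 * (N : ℝ) / (n : ℝ) ^ 2) :
    1 / (640 * 101 ^ 44) * ε ^ 44 * (n : ℝ) ^ 4 ≤ N := by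
  obtain ⟨M, hMdef⟩ : ∃ M : ℕ, M = ⌈100 / ε⌉₊ := ⟨_, rfl⟩
  have hM1 : (100 / ε : ℝ) ≤ M := by rw [hMdef]; exact Nat.le_ceil _
  have hM2 : (M : ℝ) < 100 / ε + 1 := by
    rw [hMdef]; exact Nat.ceil_lt_add_one (by positivity)
  have h100 : (100 : ℝ) < 100 / ε := by
    rw [lt_div_iff₀ hε0]; nlinarith
  have hMpos : (0 : ℝ) < M := by linarith
  have hMnat : 1 ≤ M := by
    have : (0 : ℝ) < (M : ℝ) := hMpos
    exact_mod_cast this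
  -- key: `M * ε ≤ 101`
  have hMε : (M : ℝ) * ε ≤ 101 := by
    have : (M : ℝ) * ε < (100 / ε + 1) * ε := mul_lt_mul_of_pos_right hM2 hε0
    have h2 : (100 / ε + 1) * ε = 100 + ε := by field_simp
    linarith
  have hMε0 : 0 ≤ (M : ℝ) * ε := by positivity
  have hMε' : 100 ≤ (M : ℝ) * ε := by
    have := mul_le_mul_of_nonneg_right hM1 hε0.le
    have h2 : 100 / ε * ε = 100 := by field_simp
    linarith
  have hnpos : (0 : ℝ) < n := by exact_mod_cast hn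
  have hNr : (1 : ℝ) ≤ N := by exact_mod_cast hN
  have hε44 : ε ^ 44 ≤ 1 := pow_le_one₀ hε0.le hε1.le
  by_cases hcase : n < M ^ 11
  · -- small `n`
    have hnM : (n : ℝ) ≤ (M : ℝ) ^ 11 := by exact_mod_cast hcase.le
    have h4 : (n : ℝ) ^ 4 ≤ (M : ℝ) ^ 44 := by
      calc (n : ℝ) ^ 4 ≤ ((M : ℝ) ^ 11) ^ 4 := pow_le_pow_left₀ hnpos.le hnM 4
        _ = (M : ℝ) ^ 44 := by ring
    have h5 : ε ^ 44 * (n : ℝ) ^ 4 ≤ 101 ^ 44 := by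
      calc ε ^ 44 * (n : ℝ) ^ 4 ≤ ε ^ 44 * (M : ℝ) ^ 44 :=
            mul_le_mul_of_nonneg_left h4 (by positivity)
        _ = ((M : ℝ) * ε) ^ 44 := by ring
        _ ≤ 101 ^ 44 := pow_le_pow_left₀ hMε0 hMε 44
    calc 1 / (640 * 101 ^ 44) * ε ^ 44 * (n : ℝ) ^ 4
        = (ε ^ 44 * (n : ℝ) ^ 4) / (640 * 101 ^ 44) := by ring
      _ ≤ (101 : ℝ) ^ 44 / (640 * 101 ^ 44) := by gcongr
      _ = 1 / 640 := by field_simp
      _ ≤ 1 := by norm_num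
      _ ≤ N := hNr
  · rw [not_lt] at hcase
    have hMp : 0 < M ^ 11 := by positivity
    obtain ⟨u, hu⟩ : ∃ u : ℕ, u = n / M ^ 11 := ⟨_, rfl⟩
    have hu1 : 1 ≤ u := by
      rw [hu]; exact (Nat.one_le_div_iff hMp).2 hcase
    have hle : M ^ 11 * u ≤ n := by rw [hu]; exact Nat.mul_div_le n (M ^ 11)
    have hlt : n < 2 * (M ^ 11 * u) := by
      have h1 : n < M ^ 11 * (u + 1) := by
        rw [hu]; exact Nat.lt_mul_div_succ n hMp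
      nlinarith
    have key := h M u hMnat hu1 hle hlt
    have hn2 : (0 : ℝ) < (n : ℝ) ^ 2 := by positivity
    -- `50 / M ≤ ε / 2`
    have h50 : 50 * (n : ℝ) ^ 2 / M ≤ ε / 2 * (n : ℝ) ^ 2 := by
      rw [div_le_iff₀ hMpos]
      nlinarith
    have h6 : ε / 2 * (n : ℝ) ^ 2 ≤ 320 * (M : ℝ) ^ 41 * (N : ℝ) / (n : ℝ) ^ 2 := by
      linarith
    rw [le_div_iff₀ hn2] at h6
    -- multiply by `ε ^ 41`
    have h7 : ε ^ 42 * (n : ℝ) ^ 4 ≤ 640 * 101 ^ 41 * (N : ℝ) := by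
      have hp : (0 : ℝ) ≤ ε ^ 41 := by positivity
      have h8 : ((M : ℝ) * ε) ^ 41 ≤ 101 ^ 41 := pow_le_pow_left₀ hMε0 hMε 41
      calc ε ^ 42 * (n : ℝ) ^ 4 = 2 * ε ^ 41 * (ε / 2 * (n : ℝ) ^ 2 * (n : ℝ) ^ 2) := by ring
        _ ≤ 2 * ε ^ 41 * (320 * (M : ℝ) ^ 41 * (N : ℝ)) := by gcongr
        _ = 640 * ((M : ℝ) * ε) ^ 41 * (N : ℝ) := by ring
        _ ≤ 640 * 101 ^ 41 * (N : ℝ) := by gcongr
    have h9 : ε ^ 44 * (n : ℝ) ^ 4 ≤ ε ^ 42 * (n : ℝ) ^ 4 := by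
      have : ε ^ 44 ≤ ε ^ 42 := pow_le_pow_of_le_one hε0.le hε1.le (by norm_num)
      gcongr
    calc 1 / (640 * 101 ^ 44) * ε ^ 44 * (n : ℝ) ^ 4
        = (ε ^ 44 * (n : ℝ) ^ 4) / (640 * 101 ^ 44) := by ring
      _ ≤ (640 * 101 ^ 41 * (N : ℝ)) / (640 * 101 ^ 44) :=
          div_le_div_of_nonneg_right (h9.trans h7) (by positivity)
      _ = (N : ℝ) / 101 ^ 3 := by field_simp
      _ ≤ N := div_le_self (by positivity) (by norm_num)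

end Vale.Agent.Lib.P037
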