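import Vale.Agent.Lib.P037.Rank
import Vale.Agent.Lib.P037.Bucket

namespace Vale.Agent.Lib.P037

open Finset

theorem rho_le (n t : ℕ) (ht : 1 ≤ t) (A : ℕ → ℕ → Bool) (r : ℕ) : rho n t A r ≤ t :=
  (rk_le_card _ _ _).trans (card_strip_le n t _ ht)

theorem Bmat_true_iff (n t z q : ℕ) (A : ℕ → ℕ → Bool) (σ : ℕ → ℕ)
    (Cv : ℕ → ℕ → ℕ → ℕ → Finset ℕ) (r c : ℕ) :
    Bmat n t z q A σ Cv r c = true ↔ (c ∉ Bad n t z q A σ ∧ c ∉ Cov n t z q Cv ∧
      bk z q (σ (r / t)) (rho n t A r) ≤ lev n t z q A σ (r / t) c) := by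
  unfold Bmat
  exact decide_eq_true_iff

theorem Bmat_false_iff (n t z q : ℕ) (A : ℕ → ℕ → Bool) (σ : ℕ → ℕ)
    (Cv : ℕ → ℕ → ℕ → ℕ → Finset ℕ) (r c : ℕ) :
    Bmat n t z q A σ Cv r c = false ↔ ¬ (c ∉ Bad n t z q A σ ∧ c ∉ Cov n t z q Cv ∧
      bk z q (σ (r / t)) (rho n t A r) ≤ lev n t z q A σ (r / t) c) := by
  unfold Bmat
  exact decide_eq_false_iff_not

/-- Blueprint, Step 5: `Bmat` is `I2`-free. -/
theorem Bmat_free (n t z q : ℕ) (ht : 1 ≤ t) (hz : 1 ≤ z) (hq : 1 ≤ q)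
    (A : ℕ → ℕ → Bool) (σ : ℕ → ℕ) (Cv : ℕ → ℕ → ℕ → ℕ → Finset ℕ)
    (hσ : ∀ j, σ j < q)
    (hcov : ∀ i l j l', ∀ a ∈ F n t z q A σ i l \ F n t z q A σ j l',
      ∀ b ∈ F n t z q A σ j l' \ F n t z q A σ i l,
      a ∉ Cv i l j l' → b ∉ Cv i l j l' → ¬ a < b) :
    freeN n (Bmat n t z q A σ Cv) := by
  intro r1 r2 c1 c2 hr hr2 hc hc2 hB
  obtain ⟨h11, h12, h21, h22⟩ := hB
  rw [Bmat_true_iff] at h11 h22
  rw [Bmat_false_iff] at h12 h21
  obtain ⟨hb1, hv1, hl1⟩ := h11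
  obtain ⟨hb2, hv2, hl2⟩ := h22
  have hl12 : lev n t z q A σ (r1 / t) c2 < bk z q (σ (r1 / t)) (rho n t A r1) := by
    by_contra hcon
    push Not at hcon
    exact h12 ⟨hb2, hv2, hcon⟩
  have hl21 : lev n t z q A σ (r2 / t) c1 < bk z q (σ (r2 / t)) (rho n t A r2) := by
    by_contra hcon
    push Not at hcon
    exact h21 ⟨hb1, hv1, hcon⟩
  have hij : r1 / t ≤ r2 / t := Nat.div_le_div_right hr.le
  rcases hij.eq_or_lt with heq | hlt
  · rw [← heq] at hl21 hl2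
    omega
  · obtain ⟨i, hi⟩ : ∃ i, i = r1 / t := ⟨_, rfl⟩
    obtain ⟨j, hj⟩ : ∃ j, j = r2 / t := ⟨_, rfl⟩
    obtain ⟨l, hl⟩ : ∃ l, l = bk z q (σ i) (rho n t A r1) := ⟨_, rfl⟩
    obtain ⟨l', hl'⟩ : ∃ l', l' = bk z q (σ j) (rho n t A r2) := ⟨_, rfl⟩
    rw [← hi, ← hl] at hl1 hl12
    rw [← hj, ← hl'] at hl2 hl21
    rw [← hi, ← hj] at hlt
    have hc1n : c1 < n := hc.trans hc2
    have ha : c1 ∈ F n t z q A σ i l \ F n t z q A σ j l' := by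
      unfold F
      rw [Finset.mem_sdiff, Finset.mem_filter, Finset.mem_filter, Finset.mem_sdiff,
        Finset.mem_range]
      exact ⟨⟨⟨hc1n, hb1⟩, hl1⟩, fun h => absurd h.2 (not_le.mpr hl21)⟩
    have hb : c2 ∈ F n t z q A σ j l' \ F n t z q A σ i l := by
      unfold F
      rw [Finset.mem_sdiff, Finset.mem_filter, Finset.mem_filter, Finset.mem_sdiff,
        Finset.mem_range]
      exact ⟨⟨⟨hc2, hb2⟩, hl2⟩, fun h => absurd h.2 (not_le.mpr hl12)⟩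
    have hidx : ((i, l), (j, l')) ∈ idx (n / t + 1) (t / z / q + 2) := by
      unfold idx
      rw [Finset.mem_filter, Finset.mem_product, Finset.mem_product, Finset.mem_product]
      simp only [Finset.mem_range]
      refine ⟨⟨⟨?_, ?_⟩, ⟨?_, ?_⟩⟩, hlt⟩
      · rw [hi]
        exact Nat.lt_succ_of_le (Nat.div_le_div_right (hr.trans hr2).le)
      · rw [hl]
        exact bk_lt hz hq (hσ i) (rho_le n t ht A r1)
      · rw [hj]
        exact Nat.lt_succ_of_le (Nat.div_le_div_right hr2.le)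
      · rw [hl']
        exact bk_lt hz hq (hσ j) (rho_le n t ht A r2)
    have hn1 : c1 ∉ Cv i l j l' := by
      intro h
      apply hv1
      unfold Cov
      rw [Finset.mem_biUnion]
      exact ⟨((i, l), (j, l')), hidx, h⟩
    have hn2 : c2 ∉ Cv i l j l' := by
      intro h
      apply hv2
      unfold Cov
      rw [Finset.mem_biUnion]
      exact ⟨((i, l), (j, l')), hidx, h⟩
    exact hcov i l j l' c1 ha c2 hb hn1 hn2 hc

end Vale.Agent.Lib.P037
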