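import Vale.Agent.Lib.P037.Bridge

/-!
# P037: generic `2 × 2` patterns over `ℕ`-indexed Boolean arrays, and the removal property `RP`.
See notes/P037_blueprint2.md.
-/

namespace Vale.Agent.Lib.P037

open Finset

/-- Ordered copies `(r1,r2,c1,c2)` of `[[a,b],[c,d]]` in the `n × n` corner of `A`. -/
def copies2 (n : ℕ) (a b c d : Bool) (A : ℕ → ℕ → Bool) : Finset (ℕ × ℕ × ℕ × ℕ) :=
  (range n ×ˢ range n ×ˢ range n ×ˢ range n).filter fun p =>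
    p.1 < p.2.1 ∧ p.2.2.1 < p.2.2.2 ∧
    A p.1 p.2.2.1 = a ∧ A p.1 p.2.2.2 = b ∧
    A p.2.1 p.2.2.1 = c ∧ A p.2.1 p.2.2.2 = d

/-- No ordered copy of `[[a,b],[c,d]]` in the `n × n` corner. -/
def free2 (n : ℕ) (a b c d : Bool) (B : ℕ → ℕ → Bool) : Prop :=
  ∀ r1 r2 c1 c2, r1 < r2 → r2 < n → c1 < c2 → c2 < n →
    ¬ (B r1 c1 = a ∧ B r1 c2 = b ∧ B r2 c1 = c ∧ B r2 c2 = d)

/-- The polynomial removal property (Q1 of the problem) for a fixed `k × k` pattern `H`. -/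
def RP {k : ℕ} (H : Matrix (Fin k) (Fin k) Bool) : Prop :=
  ∃ (c : ℝ) (C : ℕ), 0 < c ∧ 0 < C ∧
    ∀ n : ℕ, 1 ≤ n → ∀ ε : ℝ, 0 < ε → ε < 1 →
    ∀ A : Matrix (Fin n) (Fin n) Bool, ε ≤ dist H A →
      c * ε ^ C * (n : ℝ) ^ (2 * k) ≤ (numCopies H A : ℝ)

open Classical in
theorem card_copies2_le {n : ℕ} (a b c d : Bool) (A : Matrix (Fin n) (Fin n) Bool) :
    (copies2 n a b c d (ext A)).card ≤ numCopies !![a, b; c, d] A := by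
  unfold numCopies
  rw [Nat.card_eq_fintype_card, Fintype.card_subtype]
  refine Finset.card_le_card_of_surjOn
    (fun p : (Fin 2 → Fin n) × (Fin 2 → Fin n) =>
      ((p.1 0 : ℕ), (p.1 1 : ℕ), (p.2 0 : ℕ), (p.2 1 : ℕ))) ?_
  rintro ⟨r1, r2, c1, c2⟩ hp
  rw [Finset.mem_coe] at hp
  unfold copies2 at hp
  rw [Finset.mem_filter] at hp
  simp only [Finset.mem_product, Finset.mem_range] at hp
  obtain ⟨⟨hr1, hr2, hc1, hc2⟩, hr, hc, h11, h12, h21, h22⟩ := hp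
  rw [ext_apply A hr1 hc1] at h11
  rw [ext_apply A hr1 hc2] at h12
  rw [ext_apply A hr2 hc1] at h21
  rw [ext_apply A hr2 hc2] at h22
  refine ⟨(![⟨r1, hr1⟩, ⟨r2, hr2⟩], ![⟨c1, hc1⟩, ⟨c2, hc2⟩]), ?_, rfl⟩
  rw [Finset.mem_coe, Finset.mem_filter]
  refine ⟨Finset.mem_univ _, strictMono_pair hr, strictMono_pair hc, ?_⟩
  intro i j
  fin_cases i <;> fin_cases j
  · exact h11
  · exact h12
  · exact h21
  · exact h22

theorem isFree_res2 {n : ℕ} (a b c d : Bool) (B : ℕ → ℕ → Bool) (h : free2 n a b c d B) :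
    IsFree !![a, b; c, d] (res n B) := by
  unfold IsFree numCopies
  rw [Nat.card_eq_zero]
  left
  constructor
  rintro ⟨⟨f, g⟩, hf, hg, hA⟩
  have hr : f 0 < f 1 := hf (by decide)
  have hc : g 0 < g 1 := hg (by decide)
  exact h (f 0) (f 1) (g 0) (g 1) hr (f 1).2 hc (g 1).2 ⟨hA 0 0, hA 0 1, hA 1 0, hA 1 1⟩

/-- general final arithmetic (same proof as `final_arith`, with parameters). -/
theorem final_arith_gen (ea eb M0 : ℕ) (k1 k2 : ℝ) (hk1 : 0 < k1) (hk2 : 0 < k2) :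
    ∃ (c : ℝ) (C : ℕ), 0 < c ∧ 0 < C ∧
      ∀ (n N : ℕ) (ε : ℝ), 1 ≤ n → 0 < ε → ε < 1 → 1 ≤ N →
      (∀ M u : ℕ, M0 ≤ M → 1 ≤ M → 1 ≤ u → M ^ ea * u ≤ n → n < 2 * (M ^ ea * u) →
        ε * (n : ℝ) ^ 2 ≤ k1 * (n : ℝ) ^ 2 / M + k2 * (M : ℝ) ^ eb * (N : ℝ) / (n : ℝ) ^ 2) →
      c * ε ^ C * (n : ℝ) ^ 4 ≤ N := by
  obtain ⟨Q, hQdef⟩ : ∃ Q : ℝ, Q = (M0 : ℝ) + 2 * k1 + 1 := ⟨_, rfl⟩
  have hM0 : (0 : ℝ) ≤ (M0 : ℝ) := Nat.cast_nonneg _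
  have hQ1 : 1 ≤ Q := by rw [hQdef]; linarith
  have hQ0 : 0 < Q := by linarith
  refine ⟨1 / ((2 * k2 + 1) * Q ^ (4 * ea + eb)), 4 * ea + eb + 1, by positivity, by omega, ?_⟩
  intro n N ε hn hε0 hε1 hN h
  obtain ⟨M, hMdef⟩ : ∃ M : ℕ, M = max M0 ⌈2 * k1 / ε⌉₊ := ⟨_, rfl⟩
  have hMM0 : M0 ≤ M := by rw [hMdef]; exact le_max_left _ _
  have hM1 : (2 * k1 / ε : ℝ) ≤ M := by
    have h1 : (2 * k1 / ε : ℝ) ≤ (⌈2 * k1 / ε⌉₊ : ℝ) := Nat.le_ceil _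
    have h2 : ((⌈2 * k1 / ε⌉₊ : ℕ) : ℝ) ≤ (M : ℝ) := by
      rw [hMdef]; exact_mod_cast le_max_right _ _
    linarith
  have hpos : (0 : ℝ) < 2 * k1 / ε := by positivity
  have hM2 : (M : ℝ) ≤ (M0 : ℝ) + (2 * k1 / ε + 1) := by
    have h1 : ((⌈2 * k1 / ε⌉₊ : ℕ) : ℝ) < 2 * k1 / ε + 1 := Nat.ceil_lt_add_one hpos.le
    have h2 : (M : ℝ) ≤ (M0 : ℝ) + ((⌈2 * k1 / ε⌉₊ : ℕ) : ℝ) := by
      rw [hMdef]
      have : max M0 ⌈2 * k1 / ε⌉₊ ≤ M0 + ⌈2 * k1 / ε⌉₊ := by omega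
      exact_mod_cast this
    linarith
  have hMpos : (0 : ℝ) < M := by linarith
  have hMnat : 1 ≤ M := by
    have : (0 : ℝ) < (M : ℝ) := hMpos
    exact_mod_cast this
  have hMε : (M : ℝ) * ε ≤ Q := by
    have h1 : (M : ℝ) * ε ≤ ((M0 : ℝ) + (2 * k1 / ε + 1)) * ε :=
      mul_le_mul_of_nonneg_right hM2 hε0.le
    have h2 : ((M0 : ℝ) + (2 * k1 / ε + 1)) * ε = (M0 : ℝ) * ε + 2 * k1 + ε := by
      field_simp
      ring
    have h3 : (M0 : ℝ) * ε ≤ (M0 : ℝ) := by nlinarith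
    rw [hQdef]; linarith
  have hMε0 : 0 ≤ (M : ℝ) * ε := by positivity
  have hMε' : 2 * k1 ≤ (M : ℝ) * ε := by
    have := mul_le_mul_of_nonneg_right hM1 hε0.le
    have h2 : 2 * k1 / ε * ε = 2 * k1 := by field_simp
    linarith
  have hnpos : (0 : ℝ) < n := by exact_mod_cast hn
  have hNr : (1 : ℝ) ≤ N := by exact_mod_cast hN
  have hden : (0 : ℝ) < (2 * k2 + 1) * Q ^ (4 * ea + eb) := by positivity
  have hgoal : ε ^ (4 * ea + eb + 1) * (n : ℝ) ^ 4 ≤ (2 * k2 + 1) * Q ^ (4 * ea + eb) * N := by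
    by_cases hcase : n < M ^ ea
    · have hnM : (n : ℝ) ≤ (M : ℝ) ^ ea := by exact_mod_cast hcase.le
      have h4 : (n : ℝ) ^ 4 ≤ (M : ℝ) ^ (4 * ea) := by
        calc (n : ℝ) ^ 4 ≤ ((M : ℝ) ^ ea) ^ 4 := pow_le_pow_left₀ hnpos.le hnM 4
          _ = (M : ℝ) ^ (4 * ea) := by rw [← pow_mul, mul_comm]
      have h5 : ε ^ (4 * ea + eb + 1) ≤ ε ^ (4 * ea) :=
        pow_le_pow_of_le_one hε0.le hε1.le (by omega)
      calc ε ^ (4 * ea + eb + 1) * (n : ℝ) ^ 4 ≤ ε ^ (4 * ea) * (M : ℝ) ^ (4 * ea) := by gcongr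
        _ = ((M : ℝ) * ε) ^ (4 * ea) := by rw [mul_pow, mul_comm]
        _ ≤ Q ^ (4 * ea) := pow_le_pow_left₀ hMε0 hMε _
        _ ≤ Q ^ (4 * ea + eb) := pow_le_pow_right₀ hQ1 (by omega)
        _ = 1 * Q ^ (4 * ea + eb) * 1 := by ring
        _ ≤ (2 * k2 + 1) * Q ^ (4 * ea + eb) * N := by
            gcongr
            linarith
    · rw [not_lt] at hcase
      have hMp : 0 < M ^ ea := by positivity
      obtain ⟨u, hu⟩ : ∃ u : ℕ, u = n / M ^ ea := ⟨_, rfl⟩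
      have hu1 : 1 ≤ u := by
        rw [hu]; exact (Nat.one_le_div_iff hMp).2 hcase
      have hle : M ^ ea * u ≤ n := by rw [hu]; exact Nat.mul_div_le n (M ^ ea)
      have hlt : n < 2 * (M ^ ea * u) := by
        have h1 : n < M ^ ea * (u + 1) := by
          rw [hu]; exact Nat.lt_mul_div_succ n hMp
        nlinarith
      have key := h M u hMM0 hMnat hu1 hle hlt
      have hn2 : (0 : ℝ) < (n : ℝ) ^ 2 := by positivity
      have h50 : k1 * (n : ℝ) ^ 2 / M ≤ ε / 2 * (n : ℝ) ^ 2 := by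
        rw [div_le_iff₀ hMpos]
        nlinarith
      have h6 : ε / 2 * (n : ℝ) ^ 2 ≤ k2 * (M : ℝ) ^ eb * (N : ℝ) / (n : ℝ) ^ 2 := by
        linarith
      rw [le_div_iff₀ hn2] at h6
      have h8 : ((M : ℝ) * ε) ^ eb ≤ Q ^ eb := pow_le_pow_left₀ hMε0 hMε eb
      have h7 : ε ^ (eb + 1) * (n : ℝ) ^ 4 ≤ 2 * k2 * Q ^ eb * (N : ℝ) := by
        calc ε ^ (eb + 1) * (n : ℝ) ^ 4
            = 2 * ε ^ eb * (ε / 2 * (n : ℝ) ^ 2 * (n : ℝ) ^ 2) := by ring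
          _ ≤ 2 * ε ^ eb * (k2 * (M : ℝ) ^ eb * (N : ℝ)) := by gcongr
          _ = 2 * k2 * ((M : ℝ) * ε) ^ eb * (N : ℝ) := by rw [mul_pow]; ring
          _ ≤ 2 * k2 * Q ^ eb * (N : ℝ) := by gcongr
      have h9 : ε ^ (4 * ea + eb + 1) ≤ ε ^ (eb + 1) :=
        pow_le_pow_of_le_one hε0.le hε1.le (by omega)
      calc ε ^ (4 * ea + eb + 1) * (n : ℝ) ^ 4 ≤ ε ^ (eb + 1) * (n : ℝ) ^ 4 := by gcongr
        _ ≤ 2 * k2 * Q ^ eb * (N : ℝ) := h7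
        _ ≤ (2 * k2 + 1) * Q ^ (4 * ea + eb) * N := by
            have : Q ^ eb ≤ Q ^ (4 * ea + eb) := pow_le_pow_right₀ hQ1 (by omega)
            gcongr
            linarith
  calc 1 / ((2 * k2 + 1) * Q ^ (4 * ea + eb)) * ε ^ (4 * ea + eb + 1) * (n : ℝ) ^ 4
      = (ε ^ (4 * ea + eb + 1) * (n : ℝ) ^ 4) / ((2 * k2 + 1) * Q ^ (4 * ea + eb)) := by ring
    _ ≤ ((2 * k2 + 1) * Q ^ (4 * ea + eb) * N) / ((2 * k2 + 1) * Q ^ (4 * ea + eb)) :=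
        div_le_div_of_nonneg_right hgoal hden.le
    _ = N := by field_simp

/-- From an `ℕ`-level bound of the standard shape to the removal property. -/
theorem RP_of_bound (a b c d : Bool) (ea eb M0 : ℕ) (k1 k2 : ℝ) (hk1 : 0 < k1) (hk2 : 0 < k2)
    (hb : ∀ (M u n : ℕ), M0 ≤ M → 1 ≤ M → 1 ≤ u → M ^ ea * u ≤ n → n < 2 * (M ^ ea * u) →
      ∀ A : ℕ → ℕ → Bool, ∃ B : ℕ → ℕ → Bool, free2 n a b c d B ∧
        (hamN n A B : ℝ) ≤ k1 * (n : ℝ) ^ 2 / M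
          + k2 * (M : ℝ) ^ eb * ((copies2 n a b c d A).card : ℝ) / (n : ℝ) ^ 2) :
    RP !![a, b; c, d] := by
  obtain ⟨c0, C, hc0, hC, hfin⟩ := final_arith_gen ea eb M0 k1 k2 hk1 hk2
  refine ⟨c0, C, hc0, hC, ?_⟩
  intro n hn ε hε0 hε1 A hA
  have hnpos : (0 : ℝ) < (n : ℝ) ^ 2 := by positivity
  have := hfin n (numCopies !![a, b; c, d] A) ε hn hε0 hε1
    (one_le_numCopies_of_dist_pos _ A (lt_of_lt_of_le hε0 hA)) ?_
  · simpa using this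
  intro M u hM0 hM hu h1 h2
  obtain ⟨B, hB, hham⟩ := hb M u n hM0 hM hu h1 h2 (ext A)
  have h3 : ε ≤ (hamming A (res n B) : ℝ) / (n : ℝ) ^ 2 :=
    hA.trans (dist_le _ A (res n B) (isFree_res2 a b c d B hB))
  rw [le_div_iff₀ hnpos, hamming_res] at h3
  refine h3.trans (hham.trans ?_)
  have h4 : ((copies2 n a b c d (ext A)).card : ℝ) ≤ (numCopies !![a, b; c, d] A : ℝ) := by
    exact_mod_cast card_copies2_le a b c d A
  gcongr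

end Vale.Agent.Lib.P037
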