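import Vale.Agent.Lib.P037.Rank
import Vale.Agent.Lib.P037.Bucket

namespace Vale.Agent.Lib.P037

open Finset

theorem hamN_triangle (n : ℕ) (A B C : ℕ → ℕ → Bool) :
    hamN n A C ≤ hamN n A B + hamN n B C := by
  unfold hamN
  refine le_trans (Finset.card_le_card ?_) (Finset.card_union_le _ _)
  intro p hp
  rw [Finset.mem_filter] at hp
  rw [Finset.mem_union, Finset.mem_filter, Finset.mem_filter]
  by_cases h : A p.1 p.2 = B p.1 p.2
  · right
    exact ⟨hp.1, fun h' => hp.2 (h.trans h')⟩
  · left
    exact ⟨hp.1, h⟩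

theorem ham_window_col (n t w : ℕ) (A : ℕ → ℕ → Bool) (c : ℕ) :
    ((range n).filter fun r => dg n t A (r / t) c < rho n t A r ∧
      rho n t A r < dg n t A (r / t) c + w).card ≤ (n / t + 1) * w := by
  rw [Finset.card_eq_sum_card_fiberwise (f := fun r : ℕ => r / t) (t := range (n / t + 1))]
  · calc _ ≤ ∑ _j ∈ range (n / t + 1), w := by
          refine Finset.sum_le_sum fun j _ => ?_
          refine le_trans (Finset.card_le_card ?_)
            (card_rk_window (strip n t j) (key n A)
              (fun x hx y hy hxy => key_injOn n A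
                (Finset.mem_coe.2 (Finset.mem_filter.1 hx).1)
                (Finset.mem_coe.2 (Finset.mem_filter.1 hy).1) hxy) (dg n t A j c) w)
          intro r hr
          rw [Finset.mem_filter, Finset.mem_filter] at hr
          obtain ⟨⟨h1, h2⟩, h3⟩ := hr
          subst h3
          rw [Finset.mem_filter]
          exact ⟨Finset.mem_filter.2 ⟨h1, rfl⟩, h2⟩
      _ = (n / t + 1) * w := by simp
  · intro r hr
    have h1 : r < n := Finset.mem_range.1 (Finset.mem_filter.1 hr).1
    exact Finset.mem_coe.2 (Finset.mem_range.2 (Nat.lt_succ_of_le (Nat.div_le_div_right h1.le)))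

/-- Blueprint, Step 6 (deleted columns and rounding). -/
theorem ham_chain_Bmat (n t z q : ℕ) (ht : 1 ≤ t) (hz : 1 ≤ z) (hq : 1 ≤ q)
    (A : ℕ → ℕ → Bool) (σ : ℕ → ℕ) (Cv : ℕ → ℕ → ℕ → ℕ → Finset ℕ) :
    hamN n (chainMat n t A) (Bmat n t z q A σ Cv) ≤
      n * ((Bad n t z q A σ).card + (Cov n t z q Cv).card) + (n / t + 1) * n * (z * q) := by
  classical
  unfold hamN
  set M₁ : Finset (ℕ × ℕ) := range n ×ˢ (Bad n t z q A σ ∪ Cov n t z q Cv) with hM₁
  set M₂ : Finset (ℕ × ℕ) := (range n ×ˢ range n).filter fun p =>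
    dg n t A (p.1 / t) p.2 < rho n t A p.1 ∧ rho n t A p.1 < dg n t A (p.1 / t) p.2 + z * q
    with hM₂
  have hsub : ((range n ×ˢ range n).filter fun p =>
      chainMat n t A p.1 p.2 ≠ Bmat n t z q A σ Cv p.1 p.2) ⊆ M₁ ∪ M₂ := by
    rintro ⟨r, c⟩ hp
    rw [Finset.mem_filter, Finset.mem_product] at hp
    obtain ⟨⟨hr, hc⟩, hne⟩ := hp
    rw [Finset.mem_union]
    by_cases hbad : c ∈ Bad n t z q A σ ∪ Cov n t z q Cv
    · left
      exact Finset.mem_product.2 ⟨hr, hbad⟩
    · right
      rw [Finset.mem_union, not_or] at hbad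
      rw [hM₂, Finset.mem_filter, Finset.mem_product]
      refine ⟨⟨hr, hc⟩, ?_⟩
      simp only [chainMat, Bmat, ne_eq, decide_eq_decide, hbad.1, hbad.2, not_false_eq_true,
        true_and] at hne
      by_cases hle : rho n t A r ≤ dg n t A (r / t) c
      · exfalso
        apply hne
        exact ⟨fun _ => bk_mono z q (σ (r / t)) hle, fun _ => hle⟩
      · have hbk : bk z q (σ (r / t)) (rho n t A r) ≤ lev n t z q A σ (r / t) c := by
          by_contra hcon
          apply hne
          exact ⟨fun h => absurd h hle, fun h => absurd h hcon⟩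
        exact ⟨not_le.1 hle, bk_same hz hq hbk⟩
  have h1 : M₁.card ≤ n * ((Bad n t z q A σ).card + (Cov n t z q Cv).card) := by
    rw [hM₁, Finset.card_product, Finset.card_range]
    exact Nat.mul_le_mul_left _ (Finset.card_union_le _ _)
  have h2 : M₂.card ≤ (n / t + 1) * n * (z * q) := by
    have : M₂.card = ∑ c ∈ range n, ((range n).filter fun r =>
        dg n t A (r / t) c < rho n t A r ∧ rho n t A r < dg n t A (r / t) c + z * q).card := by
      rw [hM₂]
      simp only [Finset.card_filter]
      rw [Finset.sum_product_right]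
    rw [this]
    calc _ ≤ ∑ _c ∈ range n, (n / t + 1) * (z * q) :=
          Finset.sum_le_sum fun c _ => ham_window_col n t (z * q) A c
      _ = (n / t + 1) * n * (z * q) := by
          rw [Finset.sum_const, Finset.card_range, smul_eq_mul]; ring
  calc _ ≤ (M₁ ∪ M₂).card := Finset.card_le_card hsub
    _ ≤ M₁.card + M₂.card := Finset.card_union_le _ _
    _ ≤ _ := add_le_add h1 h2

end Vale.Agent.Lib.P037
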