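import Vale.Agent.Lib.P037.Params
import Vale.Agent.Lib.P037.Gen2

namespace Vale.Agent.Lib.P037

/-- the removal property for `[[1,0],[0,1]]` (from `main_bound`). -/
theorem RP_I2 : RP !![true, false; false, true] :=
  RP_of_bound true false false true 11 41 1 50 320 (by norm_num) (by norm_num)
    (fun M u n _ hM hu h1 h2 A => main_bound M u n hM hu h1 h2 A)

end Vale.Agent.Lib.P037
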