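import Vale.Agent.Lib.P037.Defs

namespace Vale.Agent.Lib.P037

open Finset

lemma card_filter_prod_right3 (X Y : Finset ℕ) (p : ℕ × ℕ → Prop) [DecidablePred p] :
    ((X ×ˢ Y).filter p).card = ∑ y ∈ Y, (X.filter fun x => p (x, y)).card := by
  simp only [Finset.card_filter]
  rw [Finset.sum_product_right]

lemma card_filter_prod_left3 (X Y : Finset ℕ) (p : ℕ × ℕ → Prop) [DecidablePred p] :
    ((X ×ˢ Y).filter p).card = ∑ x ∈ X, (Y.filter fun y => p (x, y)).card := by
  simp only [Finset.card_filter]
  rw [Finset.sum_product]

lemma card_filter_div_le (t : ℕ) (ht : 1 ≤ t) (S : Finset ℕ) (k : ℕ) :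
    (S.filter fun x => x / t = k).card ≤ t := by
  have hsub : (S.filter fun x => x / t = k) ⊆ Finset.Ico (t * k) (t * k + t) := by
    intro x hx
    rw [Finset.mem_filter] at hx
    have h1 : t * k + x % t = x := by
      rw [← hx.2]
      exact Nat.div_add_mod x t
    have h2 : x % t < t := Nat.mod_lt _ (by omega)
    rw [Finset.mem_Ico]
    constructor <;> omega
  calc (S.filter fun x => x / t = k).card ≤ (Finset.Ico (t * k) (t * k + t)).card :=
        Finset.card_le_card hsub
    _ = t := by simp

/-- Blueprint, Lemma 3 (one-dimensional). -/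
theorem lemma3 (t : ℕ) (ht : 1 ≤ t) (D U : Finset ℕ) :
    ((D ×ˢ U).filter fun p => p.1 / t = p.2 / t).card ≤ 2 * t ^ 2 + 2 * incPairs D U := by
  classical
  obtain ⟨a, ha⟩ : ∃ a : ℕ → ℕ, a = fun y => (D.filter fun x => x < y).card := ⟨_, rfl⟩
  have hP : incPairs D U = ∑ y ∈ U, a y := by
    unfold incPairs
    rw [card_filter_prod_right3, ha]
  have hW : ((D ×ˢ U).filter fun p => p.1 / t = p.2 / t).card
      = ∑ y ∈ U, (D.filter fun x => x / t = y / t).card :=
    card_filter_prod_right3 D U (fun p => p.1 / t = p.2 / t)
  rw [hW, ← Finset.sum_filter_add_sum_filter_not U (fun y => a y < t)]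
  have h1 : ∑ y ∈ U.filter (fun y => ¬ a y < t), (D.filter fun x => x / t = y / t).card
      ≤ incPairs D U := by
    rw [hP]
    calc ∑ y ∈ U.filter (fun y => ¬ a y < t), (D.filter fun x => x / t = y / t).card
        ≤ ∑ y ∈ U.filter (fun y => ¬ a y < t), a y := by
          refine Finset.sum_le_sum (fun y hy => ?_)
          rw [Finset.mem_filter] at hy
          have := card_filter_div_le t ht D (y / t)
          omega
      _ ≤ ∑ y ∈ U, a y :=
          Finset.sum_le_sum_of_subset (Finset.filter_subset _ _)
  have h0 : ∑ y ∈ U.filter (fun y => a y < t), (D.filter fun x => x / t = y / t).card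
      ≤ 2 * t ^ 2 := by
    obtain ⟨Us, hUs⟩ : ∃ Us : Finset ℕ, Us = U.filter (fun y => a y < t) := ⟨_, rfl⟩
    rw [← hUs]
    rcases Us.eq_empty_or_nonempty with he | hne
    · rw [he]
      simp
    · obtain ⟨ys, hys⟩ : ∃ ys, ys = Us.max' hne := ⟨_, rfl⟩
      have hysmem : ys ∈ Us := by
        rw [hys]
        exact Finset.max'_mem _ _
      have hysa : a ys < t := by
        rw [hUs, Finset.mem_filter] at hysmem
        exact hysmem.2
      have hle : ∀ y ∈ Us, y ≤ ys := by
        intro y hy
        rw [hys]
        exact Finset.le_max' _ _ hy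
      obtain ⟨S, hS⟩ : ∃ S : Finset ℕ,
        S = (D.filter fun x => x < ys) ∪ (D.filter fun x => x / t = ys / t) := ⟨_, rfl⟩
      have hScard : S.card ≤ 2 * t := by
        have h2 : (D.filter fun x => x < ys).card < t := by
          rw [ha] at hysa
          exact hysa
        have h3 := card_filter_div_le t ht D (ys / t)
        have h4 := Finset.card_union_le (D.filter fun x => x < ys)
          (D.filter fun x => x / t = ys / t)
        rw [hS]
        omega
      calc ∑ y ∈ Us, (D.filter fun x => x / t = y / t).card
          = ((D ×ˢ Us).filter fun p => p.1 / t = p.2 / t).card :=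
            (card_filter_prod_right3 D Us (fun p => p.1 / t = p.2 / t)).symm
        _ ≤ ((S ×ˢ Us).filter fun p => p.1 / t = p.2 / t).card := by
            refine Finset.card_le_card ?_
            intro p hp
            rw [Finset.mem_filter, Finset.mem_product] at hp ⊢
            refine ⟨⟨?_, hp.1.2⟩, hp.2⟩
            rw [hS, Finset.mem_union, Finset.mem_filter, Finset.mem_filter]
            rcases lt_or_ge p.1 ys with hlt | hge
            · exact Or.inl ⟨hp.1.1, hlt⟩
            · right
              refine ⟨hp.1.1, ?_⟩
              have h5 : p.2 / t ≤ ys / t := Nat.div_le_div_right (hle p.2 hp.1.2)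
              have h6 : ys / t ≤ p.1 / t := Nat.div_le_div_right hge
              omega
        _ = ∑ x ∈ S, (Us.filter fun y => x / t = y / t).card :=
            card_filter_prod_left3 S Us (fun p => p.1 / t = p.2 / t)
        _ ≤ ∑ _x ∈ S, t := by
            refine Finset.sum_le_sum (fun x _ => ?_)
            have h7 : (Us.filter fun y => x / t = y / t) = Us.filter fun y => y / t = x / t :=
              Finset.filter_congr (fun y _ => eq_comm)
            rw [h7]
            exact card_filter_div_le t ht Us (x / t)
        _ = S.card * t := by rw [Finset.sum_const, smul_eq_mul]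
        _ ≤ 2 * t * t := Nat.mul_le_mul_right t hScard
        _ = 2 * t ^ 2 := by ring
  omega

end Vale.Agent.Lib.P037
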