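import Vale.Agent.Lib.P037.Free
import Vale.Agent.Lib.P037.DelCard
import Vale.Agent.Lib.P037.Ham
import Vale.Agent.Lib.P037.ChainAll
import Vale.Agent.Lib.P037.Cover

namespace Vale.Agent.Lib.P037

open Finset

/-- The master inequality with free parameters. -/
theorem master (n t z q s θ θ' : ℕ) (ht : 1 ≤ t) (hz : 1 ≤ z) (hq : 1 ≤ q) (hs : 1 ≤ s)
    (A : ℕ → ℕ → Bool) :
    ∃ B : ℕ → ℕ → Bool, freeN n B ∧ ∃ D0 D1 S1 : ℕ,
      hamN n A B ≤ S1 + (n * (D0 + D1) + (n / t + 1) * n * (z * q)) ∧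
      q * D0 ≤ (n / t + 1) * n ∧
      s * z ^ 2 * D1 ≤
        ((n / t + 1) * (t / z / q + 2)) ^ 2 * ((copiesN n A).card + s ^ 2 * z ^ 2) ∧
      θ * θ' * S1 ≤
        2 * (2 * t ^ 2 * n ^ 2 + 4 * (copiesN n A).card) + 2 * (n * t) * θ' ^ 2
          + 2 * ((n / t + 1) * n) * θ ^ 2 * θ' := by
  have hσ : ∀ j, ∃ σ, σ < q ∧
      q * ((range n).filter fun c => (dg n t A j c / z + σ) % q = 0).card ≤ n :=
    fun j => exists_shift n z q hq (dg n t A j)
  choose σ hσq hσc using hσ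
  have hcov : ∀ i l j l', ∃ C : Finset ℕ,
      s * C.card ≤ incPairs (F n t z q A σ i l \ F n t z q A σ j l')
        (F n t z q A σ j l' \ F n t z q A σ i l) + s ^ 2 ∧
      ∀ a ∈ F n t z q A σ i l \ F n t z q A σ j l',
        ∀ b ∈ F n t z q A σ j l' \ F n t z q A σ i l, a ∉ C → b ∉ C → ¬ a < b :=
    fun i l j l' => cover1D _ _ s hs
  choose Cv hCv1 hCv2 using hcov
  refine ⟨Bmat n t z q A σ Cv, Bmat_free n t z q ht hz hq A σ Cv hσq hCv2,
    (Bad n t z q A σ).card, (Cov n t z q Cv).card, hamN n A (chainMat n t A), ?_, ?_, ?_, ?_⟩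
  · exact (hamN_triangle n A (chainMat n t A) _).trans
      (Nat.add_le_add_left (ham_chain_Bmat n t z q ht hz hq A σ Cv) _)
  · exact Bad_card n t z q A σ hσc
  · exact Cov_card n t z q s ht hz hq A σ Cv hCv1
  · exact ham_chainMat n t ht A θ θ'

end Vale.Agent.Lib.P037
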