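import Vale.Agent.Lib.P037.Defs

namespace Vale.Agent.Lib.P037

open Finset

theorem rk_le_card (T : Finset ℕ) (κ : ℕ → ℕ) (r : ℕ) : rk T κ r ≤ T.card :=
  Finset.card_filter_le _ _

theorem rk_pos (T : Finset ℕ) (κ : ℕ → ℕ) {r : ℕ} (hr : r ∈ T) : 1 ≤ rk T κ r := by
  unfold rk
  exact Finset.card_pos.mpr ⟨r, Finset.mem_filter.mpr ⟨hr, le_refl _⟩⟩

theorem rk_mono (T : Finset ℕ) (κ : ℕ → ℕ) {r r' : ℕ} (h : κ r ≤ κ r') :
    rk T κ r ≤ rk T κ r' := by
  unfold rk
  refine Finset.card_le_card ?_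
  intro x hx
  rw [Finset.mem_filter] at hx ⊢
  exact ⟨hx.1, hx.2.trans h⟩

theorem rk_lt_iff (T : Finset ℕ) (κ : ℕ → ℕ) (hinj : Set.InjOn κ T) {r r' : ℕ}
    (hr : r ∈ T) (hr' : r' ∈ T) : rk T κ r < rk T κ r' ↔ κ r < κ r' := by
  constructor
  · intro h
    by_contra hc
    push Not at hc
    exact absurd (rk_mono T κ hc) (not_le.mpr h)
  · intro h
    unfold rk
    refine Finset.card_lt_card ?_
    rw [Finset.ssubset_iff_of_subset]
    · refine ⟨r', Finset.mem_filter.mpr ⟨hr', le_refl _⟩, ?_⟩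
      intro hx
      rw [Finset.mem_filter] at hx
      exact absurd hx.2 (not_le.mpr h)
    · intro x hx
      rw [Finset.mem_filter] at hx ⊢
      exact ⟨hx.1, hx.2.trans h.le⟩

theorem rk_injOn (T : Finset ℕ) (κ : ℕ → ℕ) (hinj : Set.InjOn κ T) :
    Set.InjOn (rk T κ) T := by
  intro r hr r' hr' h
  have hr1 : r ∈ T := hr
  have hr2 : r' ∈ T := hr'
  have h' : rk T κ r = rk T κ r' := h
  apply hinj hr hr'
  rcases lt_trichotomy (κ r) (κ r') with h1 | h1 | h1
  · have := (rk_lt_iff T κ hinj hr1 hr2).mpr h1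
    omega
  · exact h1
  · have := (rk_lt_iff T κ hinj hr2 hr1).mpr h1
    omega

theorem image_rk (T : Finset ℕ) (κ : ℕ → ℕ) (hinj : Set.InjOn κ T) :
    T.image (rk T κ) = Finset.Icc 1 T.card := by
  refine Finset.eq_of_subset_of_card_le ?_ ?_
  · intro x hx
    rw [Finset.mem_image] at hx
    obtain ⟨r, hr, rfl⟩ := hx
    exact Finset.mem_Icc.mpr ⟨rk_pos T κ hr, rk_le_card T κ r⟩
  · rw [Finset.card_image_of_injOn (rk_injOn T κ hinj)]
    simp

/-- exactly `d` elements of `T` have rank at most `d`. -/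
theorem card_rk_le (T : Finset ℕ) (κ : ℕ → ℕ) (hinj : Set.InjOn κ T) {d : ℕ}
    (hd : d ≤ T.card) : (T.filter fun r => rk T κ r ≤ d).card = d := by
  have himg : (T.filter fun r => rk T κ r ≤ d).image (rk T κ) = Finset.Icc 1 d := by
    ext x
    rw [Finset.mem_image, Finset.mem_Icc]
    constructor
    · rintro ⟨r, hr, rfl⟩
      rw [Finset.mem_filter] at hr
      exact ⟨rk_pos T κ hr.1, hr.2⟩
    · rintro ⟨h1, h2⟩
      have hx : x ∈ T.image (rk T κ) := by
        rw [image_rk T κ hinj]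
        exact Finset.mem_Icc.mpr ⟨h1, h2.trans hd⟩
      rw [Finset.mem_image] at hx
      obtain ⟨r, hr, rfl⟩ := hx
      exact ⟨r, Finset.mem_filter.mpr ⟨hr, h2⟩, rfl⟩
  have hinj' : Set.InjOn (rk T κ) (T.filter fun r => rk T κ r ≤ d : Finset ℕ) := by
    refine (rk_injOn T κ hinj).mono ?_
    intro x hx
    exact (Finset.mem_filter.mp hx).1
  rw [← Finset.card_image_of_injOn hinj', himg]
  simp

/-- at most `w` elements of `T` have rank in the window `(d, d + w)`. -/
theorem card_rk_window (T : Finset ℕ) (κ : ℕ → ℕ) (hinj : Set.InjOn κ T) (d w : ℕ) :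
    (T.filter fun r => d < rk T κ r ∧ rk T κ r < d + w).card ≤ w := by
  have hinj' : Set.InjOn (rk T κ)
      (T.filter fun r => d < rk T κ r ∧ rk T κ r < d + w : Finset ℕ) := by
    refine (rk_injOn T κ hinj).mono ?_
    intro x hx
    exact (Finset.mem_filter.mp hx).1
  rw [← Finset.card_image_of_injOn hinj']
  have hsub : (T.filter fun r => d < rk T κ r ∧ rk T κ r < d + w).image (rk T κ)
      ⊆ Finset.Ioo d (d + w) := by
    intro x hx
    rw [Finset.mem_image] at hx
    obtain ⟨r, hr, rfl⟩ := hx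
    rw [Finset.mem_filter] at hr
    exact Finset.mem_Ioo.mpr hr.2
  refine (Finset.card_le_card hsub).trans ?_
  rw [Nat.card_Ioo]
  omega

theorem key_injOn (n : ℕ) (A : ℕ → ℕ → Bool) : Set.InjOn (key n A) (range n : Finset ℕ) := by
  intro x hx y hy h
  have hx' : x < n := Finset.mem_range.mp hx
  have hy' : y < n := Finset.mem_range.mp hy
  have h' : (n - rowSize n A x) * n + x = (n - rowSize n A y) * n + y := h
  have h1 : ((n - rowSize n A x) * n + x) % n = x := by
    rw [Nat.mul_add_mod_self_right, Nat.mod_eq_of_lt hx']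
  have h2 : ((n - rowSize n A y) * n + y) % n = y := by
    rw [Nat.mul_add_mod_self_right, Nat.mod_eq_of_lt hy']
  rw [← h1, ← h2, h']

theorem rowSize_le (n : ℕ) (A : ℕ → ℕ → Bool) (r : ℕ) : rowSize n A r ≤ n := by
  unfold rowSize
  exact (Finset.card_filter_le _ _).trans (by simp)

theorem rowSize_le_of_key_le (n : ℕ) (A : ℕ → ℕ → Bool) {x y : ℕ} (hx : x < n) (hy : y < n)
    (h : key n A x ≤ key n A y) : rowSize n A y ≤ rowSize n A x := by
  have h' : (n - rowSize n A x) * n + x ≤ (n - rowSize n A y) * n + y := h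
  have hxs := rowSize_le n A x
  have hys := rowSize_le n A y
  by_contra hc
  push Not at hc
  have h1 : n - rowSize n A y + 1 ≤ n - rowSize n A x := by omega
  have h2 : (n - rowSize n A y + 1) * n ≤ (n - rowSize n A x) * n := Nat.mul_le_mul_right n h1
  have h3 : (n - rowSize n A y + 1) * n = (n - rowSize n A y) * n + n := by ring
  omega

theorem card_strip_le (n t j : ℕ) (ht : 1 ≤ t) : (strip n t j).card ≤ t := by
  have hsub : strip n t j ⊆ Finset.Ico (j * t) (j * t + t) := by
    intro r hr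
    unfold strip at hr
    rw [Finset.mem_filter] at hr
    have h1 := hr.2
    have h2 := Nat.div_add_mod r t
    have h3 := Nat.mod_lt r (by omega : t > 0)
    rw [h1] at h2
    rw [Finset.mem_Ico]
    have h4 : t * j = j * t := Nat.mul_comm _ _
    omega
  refine (Finset.card_le_card hsub).trans ?_
  rw [Nat.card_Ico]
  omega

theorem sum_card_strip (n t : ℕ) (ht : 1 ≤ t) :
    ∑ j ∈ range (n / t + 1), (strip n t j).card = n := by
  have h := Finset.card_eq_sum_card_fiberwise (f := fun r : ℕ => r / t) (s := range n)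
    (t := range (n / t + 1)) (by
      intro r hr
      have hr' : r < n := Finset.mem_range.mp hr
      exact Finset.mem_coe.mpr (Finset.mem_range.mpr
        (Nat.lt_succ_of_le (Nat.div_le_div_right hr'.le))))
  rw [Finset.card_range] at h
  exact h.symm

end Vale.Agent.Lib.P037
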