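import Vale.Agent.Lib.P037.Master

namespace Vale.Agent.Lib.P037

open Finset

/-- pure real arithmetic behind `main_bound`. -/
theorem params_real (m U x K L D0 D1 S1 N H : ℝ) (hm : 1 ≤ m) (hU : 1 ≤ U)
    (h1 : m ^ 11 * U ≤ x) (h2 : x ≤ 2 * (m ^ 11 * U))
    (hK0 : 0 ≤ K) (hK : K ≤ 2 * m ^ 4) (hL0 : 0 ≤ L) (hL : L ≤ 3 * m)
    (hD0 : 0 ≤ D0) (hD1 : 0 ≤ D1) (hS1 : 0 ≤ S1) (hN : 0 ≤ N)
    (e1 : H ≤ S1 + (x * (D0 + D1) + K * x * ((m * U) * m ^ 5)))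
    (e2 : m ^ 5 * D0 ≤ K * x)
    (e3 : U * (m * U) ^ 2 * D1 ≤ (K * L) ^ 2 * (N + U ^ 2 * (m * U) ^ 2))
    (e4 : (m ^ 6 * U) * (m ^ 9 * U) * S1 ≤
        2 * (2 * (m ^ 7 * U) ^ 2 * x ^ 2 + 4 * N) + 2 * (x * (m ^ 7 * U)) * (m ^ 9 * U) ^ 2
          + 2 * (K * x) * (m ^ 6 * U) ^ 2 * (m ^ 9 * U)) :
    H ≤ 50 * x ^ 2 / m + 320 * m ^ 41 * N / x ^ 2 := by
  have hm0 : 0 < m := by linarith
  have hU0 : 0 < U := by linarith
  have hx0 : 0 < x := lt_of_lt_of_le (by positivity) h1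
  have hx2 : 0 < x ^ 2 := by positivity
  -- the two basic quantities
  obtain ⟨Q, hQ⟩ : ∃ Q, Q = x ^ 2 / m := ⟨_, rfl⟩
  obtain ⟨P, hP⟩ : ∃ P, P = m ^ 10 * U * x := ⟨_, rfl⟩
  obtain ⟨R, hR⟩ : ∃ R, R = N / x ^ 2 := ⟨_, rfl⟩
  have hR0 : 0 ≤ R := by rw [hR]; positivity
  have hPQ : P ≤ Q := by
    rw [hP, hQ, le_div_iff₀ hm0]
    calc m ^ 10 * U * x * m = (m ^ 11 * U) * x := by ring
      _ ≤ x * x := by gcongr
      _ = x ^ 2 := by ring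
  -- term A
  have tA : K * x * ((m * U) * m ^ 5) ≤ 2 * P := by
    rw [hP]
    calc K * x * ((m * U) * m ^ 5) ≤ (2 * m ^ 4) * x * ((m * U) * m ^ 5) := by gcongr
      _ = 2 * (m ^ 10 * U * x) := by ring
  -- term B
  have tB : x * D0 ≤ 2 * Q := by
    have h3 : m ^ 4 * (m * D0) ≤ m ^ 4 * (2 * x) := by
      calc m ^ 4 * (m * D0) = m ^ 5 * D0 := by ring
        _ ≤ K * x := e2
        _ ≤ (2 * m ^ 4) * x := by gcongr
        _ = m ^ 4 * (2 * x) := by ring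
    have h4 : m * D0 ≤ 2 * x := le_of_mul_le_mul_left h3 (by positivity)
    rw [hQ, ← mul_div_assoc, le_div_iff₀ hm0]
    calc x * D0 * m = x * (m * D0) := by ring
      _ ≤ x * (2 * x) := by gcongr
      _ = 2 * x ^ 2 := by ring
  -- term C
  have hx3 : x ^ 3 ≤ 8 * m ^ 33 * U ^ 3 := by
    calc x ^ 3 ≤ (2 * (m ^ 11 * U)) ^ 3 := by gcongr
      _ = 8 * m ^ 33 * U ^ 3 := by ring
  have tC : x * D1 ≤ 36 * P + 288 * m ^ 41 * R := by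
    have hKL : (K * L) ^ 2 ≤ 36 * m ^ 10 := by
      calc (K * L) ^ 2 ≤ ((2 * m ^ 4) * (3 * m)) ^ 2 := by gcongr
        _ = 36 * m ^ 10 := by ring
    have h3 : m ^ 2 * (U ^ 3 * D1) ≤ m ^ 2 * (36 * m ^ 8 * N + 36 * m ^ 10 * U ^ 4) := by
      calc m ^ 2 * (U ^ 3 * D1) = U * (m * U) ^ 2 * D1 := by ring
        _ ≤ (K * L) ^ 2 * (N + U ^ 2 * (m * U) ^ 2) := e3
        _ ≤ (36 * m ^ 10) * (N + U ^ 2 * (m * U) ^ 2) := by gcongr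
        _ = m ^ 2 * (36 * m ^ 8 * N + 36 * m ^ 10 * U ^ 4) := by ring
    have h4 : U ^ 3 * D1 ≤ 36 * m ^ 8 * N + 36 * m ^ 10 * U ^ 4 :=
      le_of_mul_le_mul_left h3 (by positivity)
    have hpos : 0 < U ^ 3 * x ^ 2 := by positivity
    have h5 : (U ^ 3 * x ^ 2) * (x * D1) ≤ (U ^ 3 * x ^ 2) * (36 * P + 288 * m ^ 41 * R) := by
      have hRx : x ^ 2 * R = N := by rw [hR]; field_simp
      calc (U ^ 3 * x ^ 2) * (x * D1) = x ^ 3 * (U ^ 3 * D1) := by ring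
        _ ≤ x ^ 3 * (36 * m ^ 8 * N + 36 * m ^ 10 * U ^ 4) := by gcongr
        _ = 36 * m ^ 8 * N * x ^ 3 + 36 * m ^ 10 * U ^ 4 * x ^ 3 := by ring
        _ ≤ 36 * m ^ 8 * N * (8 * m ^ 33 * U ^ 3) + 36 * m ^ 10 * U ^ 4 * x ^ 3 := by gcongr
        _ = (U ^ 3) * (36 * (m ^ 10 * U * x) * x ^ 2 + 288 * m ^ 41 * N) := by ring
        _ = (U ^ 3) * (36 * (m ^ 10 * U * x) * x ^ 2 + 288 * m ^ 41 * (x ^ 2 * R)) := by
            rw [hRx]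
        _ = (U ^ 3 * x ^ 2) * (36 * P + 288 * m ^ 41 * R) := by rw [hP]; ring
    exact le_of_mul_le_mul_left h5 hpos
  -- term D
  have hx2' : x ^ 2 ≤ 4 * m ^ 22 * U ^ 2 := by
    calc x ^ 2 ≤ (2 * (m ^ 11 * U)) ^ 2 := by gcongr
      _ = 4 * m ^ 22 * U ^ 2 := by ring
  have tD : S1 ≤ 4 * Q + 6 * P + 32 * m ^ 7 * R := by
    have hpos : 0 < m ^ 15 * U ^ 2 * x ^ 2 := by positivity
    have hRx : x ^ 2 * R = N := by rw [hR]; field_simp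
    have hQm : m * Q = x ^ 2 := by rw [hQ]; field_simp
    have h3 : m ^ 15 * U ^ 2 * S1 ≤
        4 * m ^ 14 * U ^ 2 * x ^ 2 + 8 * N + 6 * m ^ 25 * U ^ 3 * x := by
      calc m ^ 15 * U ^ 2 * S1 = (m ^ 6 * U) * (m ^ 9 * U) * S1 := by ring
        _ ≤ _ := e4
        _ ≤ 2 * (2 * (m ^ 7 * U) ^ 2 * x ^ 2 + 4 * N)
              + 2 * (x * (m ^ 7 * U)) * (m ^ 9 * U) ^ 2
              + 2 * ((2 * m ^ 4) * x) * (m ^ 6 * U) ^ 2 * (m ^ 9 * U) := by gcongr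
        _ = 4 * m ^ 14 * U ^ 2 * x ^ 2 + 8 * N + 6 * m ^ 25 * U ^ 3 * x := by ring
    have h5 : (m ^ 15 * U ^ 2 * x ^ 2) * S1 ≤
        (m ^ 15 * U ^ 2 * x ^ 2) * (4 * Q + 6 * P + 32 * m ^ 7 * R) := by
      calc (m ^ 15 * U ^ 2 * x ^ 2) * S1 = x ^ 2 * (m ^ 15 * U ^ 2 * S1) := by ring
        _ ≤ x ^ 2 * (4 * m ^ 14 * U ^ 2 * x ^ 2 + 8 * N + 6 * m ^ 25 * U ^ 3 * x) := by gcongr
        _ = x ^ 2 * (4 * m ^ 14 * U ^ 2 * x ^ 2 + 6 * m ^ 25 * U ^ 3 * x) + 8 * N * x ^ 2 := by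
            ring
        _ ≤ x ^ 2 * (4 * m ^ 14 * U ^ 2 * x ^ 2 + 6 * m ^ 25 * U ^ 3 * x)
              + 8 * N * (4 * m ^ 22 * U ^ 2) := by gcongr
        _ = x ^ 2 * (4 * m ^ 14 * U ^ 2 * (m * Q) + 6 * m ^ 25 * U ^ 3 * x)
              + 8 * (x ^ 2 * R) * (4 * m ^ 22 * U ^ 2) := by rw [hQm, hRx]
        _ = (m ^ 15 * U ^ 2 * x ^ 2) * (4 * Q + 6 * P + 32 * m ^ 7 * R) := by rw [hP]; ring
    exact le_of_mul_le_mul_left h5 hpos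
  have hm7 : m ^ 7 ≤ m ^ 41 := pow_le_pow_right₀ hm (by norm_num)
  have hfin : 32 * m ^ 7 * R ≤ 32 * m ^ 41 * R := by gcongr
  have g1 : 50 * x ^ 2 / m = 50 * Q := by rw [hQ]; ring
  have g2 : 320 * m ^ 41 * N / x ^ 2 = 320 * m ^ 41 * R := by rw [hR]; ring
  rw [g1, g2]
  have e1' : H ≤ S1 + (x * D0 + x * D1 + K * x * ((m * U) * m ^ 5)) := by
    calc H ≤ _ := e1
      _ = _ := by ring
  linarith

/-- Blueprint, Step 9: `master` with `t = M^7 u, z = M u, q = M^5, s = u, θ = M^6 u, θ' = M^9 u`. -/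
theorem main_bound (M u n : ℕ) (hM : 1 ≤ M) (hu : 1 ≤ u) (h1 : M ^ 11 * u ≤ n)
    (h2 : n < 2 * (M ^ 11 * u)) (A : ℕ → ℕ → Bool) :
    ∃ B : ℕ → ℕ → Bool, freeN n B ∧
      (hamN n A B : ℝ) ≤ 50 * (n : ℝ) ^ 2 / M
        + 320 * (M : ℝ) ^ 41 * ((copiesN n A).card : ℝ) / (n : ℝ) ^ 2 := by
  have hMp : 0 < M := hM
  have hup : 0 < u := hu
  obtain ⟨B, hB, D0, D1, S1, e1, e2, e3, e4⟩ :=
    master n (M ^ 7 * u) (M * u) (M ^ 5) u (M ^ 6 * u) (M ^ 9 * u)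
      (Nat.succ_le_of_lt (by positivity)) (Nat.succ_le_of_lt (by positivity))
      (Nat.succ_le_of_lt (by positivity)) hu A
  refine ⟨B, hB, ?_⟩
  -- the two integer parameters
  have hL : M ^ 7 * u / (M * u) / M ^ 5 + 2 = M + 2 := by
    have a1 : M ^ 7 * u / (M * u) = M ^ 6 := by
      have : M ^ 7 * u = (M * u) * M ^ 6 := by ring
      rw [this, Nat.mul_div_cancel_left _ (by positivity)]
    have a2 : M ^ 6 / M ^ 5 = M := by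
      have : M ^ 6 = M ^ 5 * M := by ring
      rw [this, Nat.mul_div_cancel_left _ (by positivity)]
    rw [a1, a2]
  have hK : n / (M ^ 7 * u) + 1 ≤ 2 * M ^ 4 := by
    have : n / (M ^ 7 * u) < 2 * M ^ 4 := by
      rw [Nat.div_lt_iff_lt_mul (by positivity)]
      calc n < 2 * (M ^ 11 * u) := h2
        _ = 2 * M ^ 4 * (M ^ 7 * u) := by ring
    omega
  rw [hL] at e3
  generalize n / (M ^ 7 * u) + 1 = K at e1 e2 e3 e4 hK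
  have hMr : (1 : ℝ) ≤ M := by exact_mod_cast hM
  have hur : (1 : ℝ) ≤ u := by exact_mod_cast hu
  refine params_real (M : ℝ) (u : ℝ) (n : ℝ) (K : ℝ) ((M : ℝ) + 2) (D0 : ℝ) (D1 : ℝ) (S1 : ℝ)
    ((copiesN n A).card : ℝ) (hamN n A B : ℝ) hMr hur ?_ ?_ (by positivity) ?_ (by positivity)
    (by linarith) (by positivity) (by positivity) (by positivity) (by positivity) ?_ ?_ ?_ ?_
  · exact_mod_cast h1
  · exact_mod_cast h2.le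
  · exact_mod_cast hK
  · exact_mod_cast e1
  · exact_mod_cast e2
  · exact_mod_cast e3
  · exact_mod_cast e4

end Vale.Agent.Lib.P037
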