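import Mathlib

/-!
# P037: ordered copies of a binary pattern in a binary matrix (definitions of the problem)
-/

namespace Vale.Agent.Lib.P037

/-- `(f, g)` is an ordered copy of the `k × k` pattern `H` in the `n × n` matrix `A`:
rows `f 0 < f 1 < ...`, columns `g 0 < g 1 < ...`, and `A (f i) (g j) = H i j` for all `i j`. -/
def IsCopy {k n : ℕ} (H : Matrix (Fin k) (Fin k) Bool) (A : Matrix (Fin n) (Fin n) Bool)
    (f g : Fin k → Fin n) : Prop :=
  StrictMono f ∧ StrictMono g ∧ ∀ i j, A (f i) (g j) = H i j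

/-- `N_H(A)`: the number of ordered copies of `H` in `A`. -/
noncomputable def numCopies {k n : ℕ} (H : Matrix (Fin k) (Fin k) Bool)
    (A : Matrix (Fin n) (Fin n) Bool) : ℕ :=
  Nat.card {p : (Fin k → Fin n) × (Fin k → Fin n) // IsCopy H A p.1 p.2}

/-- `A` is `H`-free. -/
def IsFree {k n : ℕ} (H : Matrix (Fin k) (Fin k) Bool) (A : Matrix (Fin n) (Fin n) Bool) : Prop :=
  numCopies H A = 0

/-- number of entries in which `A` and `B` differ. -/
def hamming {n : ℕ} (A B : Matrix (Fin n) (Fin n) Bool) : ℕ :=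
  (Finset.univ.filter fun p : Fin n × Fin n => A p.1 p.2 ≠ B p.1 p.2).card

/-- `dist_H(A)`: the least number of entry changes making `A` `H`-free, divided by `n^2`. -/
noncomputable def dist {k n : ℕ} (H : Matrix (Fin k) (Fin k) Bool)
    (A : Matrix (Fin n) (Fin n) Bool) : ℝ :=
  (sInf {d : ℕ | ∃ B : Matrix (Fin n) (Fin n) Bool, IsFree H B ∧ hamming A B = d} : ℕ) /
    (n : ℝ) ^ 2

end Vale.Agent.Lib.P037
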